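import Mathlib

/-!
Signed areas in the plane, and the area of a triangle.
-/

open MeasureTheory Set
open scoped ENNReal

namespace Vale.Agent.P243G

/-- Twice the signed area of the triangle `p q r`. -/
def D (p q r : ℝ × ℝ) : ℝ := (q.1 - p.1) * (r.2 - p.2) - (q.2 - p.2) * (r.1 - p.1)

theorem D_cycle (p q r : ℝ × ℝ) : D p q r = D q r p := by unfold D; ring

theorem D_swap (p q r : ℝ × ℝ) : D p q r = - D p r q := by unfold D; ring

theorem D_self_left (p r : ℝ × ℝ) : D p p r = 0 := by unfold D; ring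

theorem D_self_right (p q : ℝ × ℝ) : D p q q = 0 := by unfold D; ring

theorem D_continuous (p q : ℝ × ℝ) : Continuous fun r => D p q r := by
  unfold D; fun_prop

theorem D_continuous' (p q : ℝ × ℝ) : Continuous fun r => D p r q := by
  unfold D; fun_prop

/-- The closed triangle with positively oriented vertices `q1 q2 q3`. -/
def tri (q1 q2 q3 : ℝ × ℝ) : Set (ℝ × ℝ) := {p | 0 ≤ D q1 q2 p ∧ 0 ≤ D q2 q3 p ∧ 0 ≤ D q3 q1 p}

/-- The standard triangle. -/
def stdTri : Set (ℝ × ℝ) := {p | 0 ≤ p.1 ∧ 0 ≤ p.2 ∧ p.1 + p.2 ≤ 1}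

theorem measurableSet_stdTri : MeasurableSet stdTri := by
  have h : IsClosed stdTri := by
    apply IsClosed.inter (isClosed_le continuous_const continuous_fst)
    apply IsClosed.inter (isClosed_le continuous_const continuous_snd)
    exact isClosed_le (continuous_fst.add continuous_snd) continuous_const
  exact h.measurableSet

theorem integral_one_sub : ∫ x in (0 : ℝ)..1, (1 - x) = 1 / 2 := by
  have hderiv : ∀ t ∈ uIcc (0 : ℝ) 1, HasDerivAt (fun t : ℝ => t - t ^ 2 / 2) (1 - t) t := by
    intro t _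
    have h1 : HasDerivAt (fun x : ℝ => x) 1 t := hasDerivAt_id' t
    have h2 : HasDerivAt (fun x : ℝ => x ^ 2) (2 * t) t := by simpa using hasDerivAt_pow 2 t
    exact (h1.sub (h2.div_const 2)).congr_deriv (by ring)
  rw [intervalIntegral.integral_eq_sub_of_hasDerivAt hderiv]
  · norm_num
  · apply Continuous.intervalIntegrable; fun_prop

theorem lintegral_one_sub :
    ∫⁻ x in Icc (0 : ℝ) 1, ENNReal.ofReal (1 - x) = ENNReal.ofReal (1 / 2) := by
  rw [← integral_one_sub, intervalIntegral.integral_of_le zero_le_one,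
    ofReal_integral_eq_lintegral_ofReal]
  · exact setLIntegral_congr Ioc_ae_eq_Icc.symm
  · exact (Continuous.integrableOn_Icc (by fun_prop)).mono_set Ioc_subset_Icc_self
  · refine (ae_restrict_iff' measurableSet_Ioc).mpr (Filter.Eventually.of_forall ?_)
    intro t ht
    show (0 : ℝ) ≤ 1 - t
    linarith [ht.2]

theorem volume_stdTri : volume stdTri = ENNReal.ofReal (1 / 2) := by
  rw [Measure.volume_eq_prod, Measure.prod_apply measurableSet_stdTri, ← lintegral_one_sub,
    ← lintegral_indicator measurableSet_Icc]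
  apply lintegral_congr
  intro x
  by_cases hx : x ∈ Icc (0 : ℝ) 1
  · rw [indicator_of_mem hx]
    have : Prod.mk x ⁻¹' stdTri = Icc 0 (1 - x) := by
      ext t
      simp only [stdTri, mem_preimage, mem_ofPred_eq, mem_Icc]
      constructor
      · rintro ⟨_, h2, h3⟩; exact ⟨h2, by linarith⟩
      · rintro ⟨h2, h3⟩; exact ⟨hx.1, h2, by linarith⟩
    rw [this, Real.volume_Icc, sub_zero]
  · rw [indicator_of_notMem hx]
    have : Prod.mk x ⁻¹' stdTri = ∅ := by
      ext t
      simp only [stdTri, mem_preimage, mem_ofPred_eq, mem_empty_iff_false, iff_false]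
      rintro ⟨h1, h2, h3⟩
      exact hx ⟨h1, by linarith⟩
    rw [this, measure_empty]

/-- The linear map on the plane with the given columns. -/
noncomputable def lin2 (u v : ℝ × ℝ) : (ℝ × ℝ) →ₗ[ℝ] (ℝ × ℝ) :=
  Matrix.toLin (Module.Basis.finTwoProd ℝ) (Module.Basis.finTwoProd ℝ) !![u.1, v.1; u.2, v.2]

theorem lin2_apply (u v x : ℝ × ℝ) :
    lin2 u v x = (u.1 * x.1 + v.1 * x.2, u.2 * x.1 + v.2 * x.2) := by
  unfold lin2
  rw [Matrix.toLin_finTwoProd_apply]

theorem det_lin2 (u v : ℝ × ℝ) : LinearMap.det (lin2 u v) = u.1 * v.2 - v.1 * u.2 := by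
  unfold lin2
  rw [LinearMap.det_toLin, Matrix.det_fin_two_of]

theorem volume_tri {q1 q2 q3 : ℝ × ℝ} (h : 0 < D q1 q2 q3) :
    volume (tri q1 q2 q3) = ENNReal.ofReal (D q1 q2 q3 / 2) := by
  set L := lin2 (q2 - q1) (q3 - q1) with hL
  have hdet : LinearMap.det L = D q1 q2 q3 := by
    rw [hL, det_lin2]
    simp only [D, Prod.fst_sub, Prod.snd_sub]
    ring
  have himg : tri q1 q2 q3 = (fun p => q1 + p) '' (L '' stdTri) := by
    ext p
    constructor
    · rintro ⟨h1, h2, h3⟩
      have hne : D q1 q2 q3 ≠ 0 := h.ne'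
      refine ⟨p - q1, ⟨(D q3 q1 p / D q1 q2 q3, D q1 q2 p / D q1 q2 q3), ⟨?_, ?_, ?_⟩, ?_⟩, by simp⟩
      · exact div_nonneg h3 h.le
      · exact div_nonneg h1 h.le
      · show D q3 q1 p / D q1 q2 q3 + D q1 q2 p / D q1 q2 q3 ≤ 1
        rw [← add_div, div_le_one h]
        have : D q1 q2 q3 = D q3 q1 p + D q1 q2 p + D q2 q3 p := by unfold D; ring
        linarith
      · rw [hL, lin2_apply]
        ext
        · simp only [Prod.fst_sub]
          field_simp
          simp only [D]
          ring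
        · simp only [Prod.snd_sub]
          field_simp
          simp only [D]
          ring
    · rintro ⟨_, ⟨⟨s, t⟩, ⟨hs, ht, hst⟩, rfl⟩, rfl⟩
      simp only at hs ht hst
      rw [hL, lin2_apply]
      simp only [Prod.fst_sub, Prod.snd_sub]
      have e1 : D q1 q2 (q1 + ((q2.1 - q1.1) * s + (q3.1 - q1.1) * t,
          (q2.2 - q1.2) * s + (q3.2 - q1.2) * t)) = t * D q1 q2 q3 := by
        simp only [D, Prod.fst_add, Prod.snd_add]; ring
      have e2 : D q2 q3 (q1 + ((q2.1 - q1.1) * s + (q3.1 - q1.1) * t,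
          (q2.2 - q1.2) * s + (q3.2 - q1.2) * t)) = (1 - s - t) * D q1 q2 q3 := by
        simp only [D, Prod.fst_add, Prod.snd_add]; ring
      have e3 : D q3 q1 (q1 + ((q2.1 - q1.1) * s + (q3.1 - q1.1) * t,
          (q2.2 - q1.2) * s + (q3.2 - q1.2) * t)) = s * D q1 q2 q3 := by
        simp only [D, Prod.fst_add, Prod.snd_add]; ring
      refine ⟨?_, ?_, ?_⟩
      · show 0 ≤ D q1 q2 _
        rw [e1]; positivity
      · show 0 ≤ D q2 q3 _
        rw [e2]
        apply mul_nonneg _ h.le
        linarith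
      · show 0 ≤ D q3 q1 _
        rw [e3]; positivity
  rw [himg, Set.image_add_left, measure_preimage_add, Measure.addHaar_image_linearMap, hdet,
    volume_stdTri, ← ENNReal.ofReal_mul (abs_nonneg _), abs_of_pos h]
  congr 1
  ring

/-- A line through two distinct points is a null set. -/
theorem volume_line {q r : ℝ × ℝ} (h : q ≠ r) : volume {p | D q r p = 0} = 0 := by
  let ψ : (ℝ × ℝ) →ₗ[ℝ] ℝ :=
    (r.1 - q.1) • LinearMap.snd ℝ ℝ ℝ - (r.2 - q.2) • LinearMap.fst ℝ ℝ ℝ
  have hψ : ∀ x, ψ x = (r.1 - q.1) * x.2 - (r.2 - q.2) * x.1 := fun x => by simp [ψ]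
  have hker : LinearMap.ker ψ ≠ ⊤ := by
    intro htop
    have h1 : ψ (0, 1) = 0 := by
      have : ((0, 1) : ℝ × ℝ) ∈ LinearMap.ker ψ := by rw [htop]; trivial
      exact this
    have h2 : ψ (1, 0) = 0 := by
      have : ((1, 0) : ℝ × ℝ) ∈ LinearMap.ker ψ := by rw [htop]; trivial
      exact this
    rw [hψ] at h1 h2
    simp at h1 h2
    apply h
    ext
    · linarith
    · linarith
  have hnull := Measure.addHaar_submodule (volume : Measure (ℝ × ℝ)) _ hker
  have hset : {p | D q r p = 0} = (fun p => q + p) '' (LinearMap.ker ψ : Set (ℝ × ℝ)) := by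
    ext p
    constructor
    · intro hp
      refine ⟨p - q, ?_, by simp⟩
      show ψ (p - q) = 0
      rw [hψ]
      have : D q r p = 0 := hp
      simp only [D] at this
      simp only [Prod.fst_sub, Prod.snd_sub]
      linarith
    · rintro ⟨x, hx, rfl⟩
      have hx' : ψ x = 0 := hx
      rw [hψ] at hx'
      show D q r (q + x) = 0
      simp only [D, Prod.fst_add, Prod.snd_add]
      linarith
  rw [hset, Set.image_add_left, measure_preimage_add]
  exact hnull

/-- The area of a possibly degenerate triangle. -/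
theorem volume_tri_le {a e b : ℝ × ℝ} (hab : a ≠ b) (h : 0 ≤ D a e b) :
    volume (tri a e b) ≤ ENNReal.ofReal (D a e b / 2) := by
  rcases h.eq_or_lt with h0 | hpos
  · have hsub : tri a e b ⊆ {p | D b a p = 0} := by
      rintro p ⟨h1, h2, h3⟩
      have hrel : D a e b = D a e p + D e b p + D b a p := by unfold D; ring
      show D b a p = 0
      linarith
    have : volume (tri a e b) = 0 := measure_mono_null hsub (volume_line hab.symm)
    rw [this]
    exact bot_le
  · exact (volume_tri hpos).le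

end Vale.Agent.P243G
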