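import Vale.Agent.P243G.Geom

/-!
Linear charts of three-space and elementary volumes.
-/

open MeasureTheory Set
open scoped ENNReal Pointwise

namespace Vale.Agent.P243G

/-- Three-space, with the projection to the plane as first component. -/
abbrev F := (ℝ × ℝ) × ℝ

instance volF_haar : (volume : Measure F).IsAddHaarMeasure := by
  rw [Measure.volume_eq_prod]; infer_instance

/-- The linear map with columns `a b c`. -/
noncomputable def linChart (a b c : F) : F →ₗ[ℝ] F :=
  (LinearMap.fst ℝ ℝ ℝ ∘ₗ LinearMap.fst ℝ (ℝ × ℝ) ℝ).smulRight a +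
  (LinearMap.snd ℝ ℝ ℝ ∘ₗ LinearMap.fst ℝ (ℝ × ℝ) ℝ).smulRight b +
  (LinearMap.snd ℝ (ℝ × ℝ) ℝ).smulRight c

theorem linChart_apply (a b c t : F) : linChart a b c t = t.1.1 • a + t.1.2 • b + t.2 • c := by
  simp [linChart]

/-- The determinant with columns `a b c`. -/
def det3 (a b c : F) : ℝ :=
  a.1.1 * (b.1.2 * c.2 - c.1.2 * b.2) - b.1.1 * (a.1.2 * c.2 - c.1.2 * a.2) +
    c.1.1 * (a.1.2 * b.2 - b.1.2 * a.2)

/-- The identification of three-space with coordinate space. -/
noncomputable def toFin3 : F ≃ₗ[ℝ] (Fin 3 → ℝ) where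
  toFun x := ![x.1.1, x.1.2, x.2]
  invFun v := ((v 0, v 1), v 2)
  map_add' x y := by
    ext i; fin_cases i <;> simp
  map_smul' r x := by
    ext i; fin_cases i <;> simp
  left_inv x := by simp
  right_inv v := by
    ext i; fin_cases i <;> simp

theorem det_linChart (a b c : F) : LinearMap.det (linChart a b c) = det3 a b c := by
  set M : Matrix (Fin 3) (Fin 3) ℝ :=
    !![a.1.1, b.1.1, c.1.1; a.1.2, b.1.2, c.1.2; a.2, b.2, c.2] with hM
  have hconj : toFin3.toLinearMap ∘ₗ linChart a b c ∘ₗ toFin3.symm.toLinearMap = Matrix.toLin' M := by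
    apply LinearMap.ext
    intro v
    funext i
    have hsymm : toFin3.symm v = ((v 0, v 1), v 2) := rfl
    simp only [LinearMap.coe_comp, LinearEquiv.coe_coe, Function.comp_apply, hsymm, linChart_apply,
      Matrix.toLin'_apply]
    fin_cases i
    · simp [toFin3, hM, Matrix.mulVec, dotProduct, Fin.sum_univ_three]; ring
    · simp [toFin3, hM, Matrix.mulVec, dotProduct, Fin.sum_univ_three]; ring
    · simp [toFin3, hM, Matrix.mulVec, dotProduct, Fin.sum_univ_three]; ring
  have h1 := LinearMap.det_conj (linChart a b c) toFin3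
  rw [← h1]
  have h2 : (toFin3 : F →ₗ[ℝ] (Fin 3 → ℝ)) ∘ₗ linChart a b c ∘ₗ
      (toFin3.symm : (Fin 3 → ℝ) →ₗ[ℝ] F) = Matrix.toLin' M := hconj
  rw [h2, LinearMap.det_toLin', hM, Matrix.det_fin_three]
  simp [det3]
  ring

/-- The volume of the image of a set under an affine chart. -/
theorem volume_chart_image (v a b c : F) (S : Set F) :
    volume ((fun t => v + linChart a b c t) '' S) =
      ENNReal.ofReal |det3 a b c| * volume S := by
  have h : (fun t => v + linChart a b c t) '' S = (fun x => v + x) '' (linChart a b c '' S) := by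
    rw [Set.image_image]
  rw [h, Set.image_add_left, measure_preimage_add, Measure.addHaar_image_linearMap, det_linChart]

/-- The standard simplex in three-space. -/
def stdSimplex3 : Set F := {t | 0 ≤ t.1.1 ∧ 0 ≤ t.1.2 ∧ 0 ≤ t.2 ∧ t.1.1 + t.1.2 + t.2 ≤ 1}

theorem isClosed_stdSimplex3 : IsClosed stdSimplex3 := by
  have h1 : IsClosed {t : F | 0 ≤ t.1.1} := isClosed_le continuous_const (by fun_prop)
  have h2 : IsClosed {t : F | 0 ≤ t.1.2} := isClosed_le continuous_const (by fun_prop)
  have h3 : IsClosed {t : F | 0 ≤ t.2} := isClosed_le continuous_const (by fun_prop)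
  have h4 : IsClosed {t : F | t.1.1 + t.1.2 + t.2 ≤ 1} := isClosed_le (by fun_prop) continuous_const
  exact h1.inter (h2.inter (h3.inter h4))

theorem integral_one_sub_sq : ∫ x in (0 : ℝ)..1, (1 - x) ^ 2 / 2 = 1 / 6 := by
  have hderiv : ∀ t ∈ uIcc (0 : ℝ) 1, HasDerivAt (fun t : ℝ => - (1 - t) ^ 3 / 6) ((1 - t) ^ 2 / 2) t := by
    intro t _
    have h1 : HasDerivAt (fun x : ℝ => 1 - x) (-1) t := by
      simpa using (hasDerivAt_id' t).const_sub 1
    have h2 := (h1.pow 3).neg.div_const 6
    refine h2.congr_deriv ?_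
    ring
  rw [intervalIntegral.integral_eq_sub_of_hasDerivAt hderiv]
  · norm_num
  · apply Continuous.intervalIntegrable; fun_prop

theorem volume_stdSimplex3 : volume stdSimplex3 = ENNReal.ofReal (1 / 6) := by
  have hm : MeasurableSet stdSimplex3 := isClosed_stdSimplex3.measurableSet
  have hI : ∫⁻ x in Icc (0 : ℝ) 1, ENNReal.ofReal ((1 - x) ^ 2 / 2) = ENNReal.ofReal (1 / 6) := by
    rw [← integral_one_sub_sq, intervalIntegral.integral_of_le zero_le_one,
      ofReal_integral_eq_lintegral_ofReal]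
    · exact setLIntegral_congr Ioc_ae_eq_Icc.symm
    · exact (Continuous.integrableOn_Icc (by fun_prop)).mono_set Ioc_subset_Icc_self
    · refine (ae_restrict_iff' measurableSet_Ioc).mpr (Filter.Eventually.of_forall ?_)
      intro t _
      show (0 : ℝ) ≤ (1 - t) ^ 2 / 2
      positivity
  rw [Measure.volume_eq_prod, Measure.prod_apply_symm hm, ← hI,
    ← lintegral_indicator measurableSet_Icc]
  apply lintegral_congr
  intro s
  by_cases hs : s ∈ Icc (0 : ℝ) 1
  · rw [indicator_of_mem hs]
    have h1s : 0 ≤ 1 - s := by linarith [hs.2]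
    have hset : (fun x : ℝ × ℝ => (x, s)) ⁻¹' stdSimplex3 = (1 - s) • stdTri := by
      ext u
      rcases h1s.eq_or_lt with h0 | hpos
      · have hs1 : s = 1 := by linarith
        subst hs1
        simp only [mem_preimage, stdSimplex3, mem_ofPred_eq, sub_self, zero_smul_set
          (show stdTri.Nonempty from ⟨(0, 0), by simp [stdTri]⟩)]
        constructor
        · rintro ⟨h1, h2, _, h4⟩
          have h5 : u.1 = 0 := by linarith
          have h6 : u.2 = 0 := by linarith
          ext <;> simp [h5, h6]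
        · intro h
          have hu : u = 0 := h
          subst hu
          simp
      · rw [mem_smul_set_iff_inv_smul_mem₀ hpos.ne']
        simp only [mem_preimage, stdSimplex3, mem_ofPred_eq, stdTri, Prod.smul_fst, Prod.smul_snd,
          smul_eq_mul]
        have hinv : 0 < (1 - s)⁻¹ := inv_pos.mpr hpos
        constructor
        · rintro ⟨h1, h2, _, h4⟩
          refine ⟨by positivity, by positivity, ?_⟩
          rw [← mul_add, inv_mul_le_iff₀ hpos]
          linarith
        · rintro ⟨h1, h2, h3⟩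
          refine ⟨?_, ?_, hs.1, ?_⟩
          · exact nonneg_of_mul_nonneg_right h1 hinv
          · exact nonneg_of_mul_nonneg_right h2 hinv
          · rw [← mul_add, inv_mul_le_iff₀ hpos] at h3
            linarith
    rw [hset, Measure.addHaar_smul_of_nonneg _ h1s, volume_stdTri]
    have hfr : Module.finrank ℝ (ℝ × ℝ) = 2 := by simp
    rw [hfr, ← ENNReal.ofReal_mul (by positivity)]
    congr 1
    ring
  · rw [indicator_of_notMem hs]
    have hset : (fun x : ℝ × ℝ => (x, s)) ⁻¹' stdSimplex3 = ∅ := by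
      ext u
      simp only [mem_preimage, stdSimplex3, mem_ofPred_eq, mem_empty_iff_false, iff_false]
      rintro ⟨h1, h2, h3, h4⟩
      exact hs ⟨h3, by linarith⟩
    rw [hset, measure_empty]

/-- The points of the unit cube with small product of coordinates. -/
def Sw (w : ℝ) : Set F :=
  {t | t.1.1 ∈ Icc (0 : ℝ) 1 ∧ t.1.2 ∈ Icc (0 : ℝ) 1 ∧ t.2 ∈ Icc (0 : ℝ) 1 ∧ t.1.1 * t.1.2 * t.2 < w}

theorem lintegral_inv_Icc {a1 : ℝ} (ha1 : 0 < a1) (ha1' : a1 ≤ 1) :
    ∫⁻ x in Icc a1 1, ENNReal.ofReal (1 / x) = ENNReal.ofReal (- Real.log a1) := by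
  have h1 : ∫ x in a1..1, 1 / x = - Real.log a1 := by
    rw [integral_one_div_of_pos ha1 one_pos]
    rw [div_eq_mul_inv, one_mul, Real.log_inv]
  rw [← h1, intervalIntegral.integral_of_le ha1', ofReal_integral_eq_lintegral_ofReal]
  · exact setLIntegral_congr Ioc_ae_eq_Icc.symm
  · have hc : ContinuousOn (fun x : ℝ => 1 / x) (Icc a1 1) := by
      apply ContinuousOn.div continuousOn_const continuousOn_id
      intro x hx
      have := hx.1
      simp only [id]
      linarith
    exact hc.integrableOn_compact isCompact_Icc |>.mono_set Ioc_subset_Icc_self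
  · refine (ae_restrict_iff' measurableSet_Ioc).mpr (Filter.Eventually.of_forall ?_)
    intro t ht
    show (0 : ℝ) ≤ 1 / t
    have := ht.1
    have : 0 < t := by linarith
    positivity

theorem volume_Sw_le {a1 w : ℝ} (ha1 : 0 < a1) (ha1' : a1 ≤ 1) (hw : 0 ≤ w) :
    volume (Sw w) ≤ ENNReal.ofReal (2 * a1 + (Real.log a1) ^ 2 * w) := by
  set R1 : Set F := (Icc 0 a1 ×ˢ Icc 0 1) ×ˢ Icc 0 1 with hR1
  set R2 : Set F := (Icc 0 1 ×ˢ Icc 0 a1) ×ˢ Icc 0 1 with hR2
  set R3 : Set F := ((Icc a1 1 ×ˢ Icc a1 1) ×ˢ Icc 0 1) ∩ {t | t.1.1 * t.1.2 * t.2 < w} with hR3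
  have hsub : Sw w ⊆ R1 ∪ R2 ∪ R3 := by
    rintro t ⟨h1, h2, h3, h4⟩
    by_cases h5 : t.1.1 ≤ a1
    · exact Or.inl (Or.inl ⟨⟨⟨h1.1, h5⟩, h2⟩, h3⟩)
    by_cases h6 : t.1.2 ≤ a1
    · exact Or.inl (Or.inr ⟨⟨h1, ⟨h2.1, h6⟩⟩, h3⟩)
    push Not at h5 h6
    exact Or.inr ⟨⟨⟨⟨h5.le, h1.2⟩, ⟨h6.le, h2.2⟩⟩, h3⟩, h4⟩
  have hv1 : volume R1 = ENNReal.ofReal a1 := by
    rw [hR1, Measure.volume_eq_prod, Measure.prod_prod, Measure.volume_eq_prod, Measure.prod_prod]
    simp
  have hv2 : volume R2 = ENNReal.ofReal a1 := by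
    rw [hR2, Measure.volume_eq_prod, Measure.prod_prod, Measure.volume_eq_prod, Measure.prod_prod]
    simp
  have hR3m : MeasurableSet R3 := by
    apply MeasurableSet.inter
    · exact ((measurableSet_Icc.prod measurableSet_Icc).prod measurableSet_Icc)
    · exact measurableSet_lt (by fun_prop) measurable_const
  have hv3 : volume R3 ≤ ENNReal.ofReal ((Real.log a1) ^ 2 * w) := by
    rw [Measure.volume_eq_prod, Measure.prod_apply hR3m]
    have hpt : ∀ u : ℝ × ℝ, volume (Prod.mk u ⁻¹' R3) ≤
        (Icc a1 1 ×ˢ Icc a1 1).indicator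
          (fun u : ℝ × ℝ => ENNReal.ofReal w * (ENNReal.ofReal (1 / u.1) * ENNReal.ofReal (1 / u.2))) u := by
      intro u
      by_cases hu : u ∈ Icc a1 1 ×ˢ Icc a1 1
      · rw [indicator_of_mem hu]
        have hu1 : 0 < u.1 := lt_of_lt_of_le ha1 hu.1.1
        have hu2 : 0 < u.2 := lt_of_lt_of_le ha1 hu.2.1
        have hsub : Prod.mk u ⁻¹' R3 ⊆ Icc 0 (w * ((1 / u.1) * (1 / u.2))) := by
          rintro s ⟨⟨_, hs⟩, hs2⟩
          refine ⟨hs.1, ?_⟩
          have hs2' : u.1 * u.2 * s < w := hs2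
          have hpos : 0 < u.1 * u.2 := mul_pos hu1 hu2
          have : w * ((1 / u.1) * (1 / u.2)) = w / (u.1 * u.2) := by field_simp
          rw [this, le_div_iff₀ hpos]
          nlinarith
        refine (measure_mono hsub).trans ?_
        rw [Real.volume_Icc, sub_zero, ENNReal.ofReal_mul hw,
          ENNReal.ofReal_mul (by positivity)]
      · rw [indicator_of_notMem hu]
        have : Prod.mk u ⁻¹' R3 = ∅ := by
          ext s
          simp only [mem_preimage, mem_empty_iff_false, iff_false]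
          rintro ⟨⟨h, _⟩, _⟩
          exact hu h
        rw [this, measure_empty]
    refine (lintegral_mono hpt).trans ?_
    rw [lintegral_indicator (measurableSet_Icc.prod measurableSet_Icc),
      lintegral_const_mul' _ _ ENNReal.ofReal_ne_top]
    have hmf : Measurable (fun x : ℝ => ENNReal.ofReal (1 / x)) := by fun_prop
    have hprod : ∫⁻ u in Icc a1 1 ×ˢ Icc a1 1, ENNReal.ofReal (1 / u.1) * ENNReal.ofReal (1 / u.2)
        = ENNReal.ofReal (- Real.log a1) * ENNReal.ofReal (- Real.log a1) := by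
      rw [Measure.volume_eq_prod, ← Measure.prod_restrict]
      have := lintegral_prod_mul (μ := volume.restrict (Icc a1 1)) (ν := volume.restrict (Icc a1 1))
        (f := fun x : ℝ => ENNReal.ofReal (1 / x)) (g := fun x : ℝ => ENNReal.ofReal (1 / x))
        hmf.aemeasurable hmf.aemeasurable
      rw [this, lintegral_inv_Icc ha1 ha1']
    rw [hprod]
    have hlog : 0 ≤ - Real.log a1 := by
      have := Real.log_nonpos ha1.le ha1'
      linarith
    rw [← ENNReal.ofReal_mul hlog, ← ENNReal.ofReal_mul hw]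
    apply le_of_eq
    congr 1
    ring
  calc volume (Sw w) ≤ volume (R1 ∪ R2 ∪ R3) := measure_mono hsub
    _ ≤ volume (R1 ∪ R2) + volume R3 := measure_union_le _ _
    _ ≤ volume R1 + volume R2 + volume R3 := by
        gcongr
        exact measure_union_le _ _
    _ ≤ ENNReal.ofReal a1 + ENNReal.ofReal a1 + ENNReal.ofReal ((Real.log a1) ^ 2 * w) := by
        rw [hv1, hv2]
        gcongr
    _ = ENNReal.ofReal (2 * a1 + (Real.log a1) ^ 2 * w) := by
        rw [← ENNReal.ofReal_add ha1.le ha1.le, ← ENNReal.ofReal_add (by positivity) (by positivity)]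
        congr 1
        ring

end Vale.Agent.P243G
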