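import Vale.Agent.P243G.Packing

/-!
A long chord cannot have points with large lens near both of its ends.
-/

open MeasureTheory Set Module
open scoped ENNReal Pointwise

namespace Vale.Agent.P243G

open Vale.Agent.P243 (chordSet chordLen chordSet_eq_Icc chordLen_eq chordLen_nonneg chordLen_concave
  mem_fst_image_of_convex volume_le_of_slices)

/-- A longest horizontal chord of a compact planar set. -/
theorem exists_longest_horizontal {P : Set (ℝ × ℝ)} (hP : IsCompact P) (hne : P.Nonempty) :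
    ∃ p ∈ P, ∃ p' ∈ P, p.2 = p'.2 ∧ ∀ q ∈ P, ∀ q' ∈ P, q.2 = q'.2 → q.1 - q'.1 ≤ p.1 - p'.1 := by
  set Z : Set ((ℝ × ℝ) × (ℝ × ℝ)) := (P ×ˢ P) ∩ {u | u.1.2 = u.2.2} with hZ
  have hZc : IsCompact Z := (hP.prod hP).inter_right (isClosed_eq (by fun_prop) (by fun_prop))
  obtain ⟨x, hx⟩ := hne
  have hZne : Z.Nonempty := ⟨(x, x), ⟨hx, hx⟩, rfl⟩
  obtain ⟨u, hu, hmax⟩ := hZc.exists_isMaxOn hZne
    (f := fun u => u.1.1 - u.2.1) (by fun_prop)
  refine ⟨u.1, hu.1.1, u.2, hu.1.2, hu.2, ?_⟩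
  intro q hq q' hq' he
  exact hmax (show (q, q') ∈ Z from ⟨⟨hq, hq'⟩, he⟩)

/-- The fibre estimate for a lens near the bottom of a chord. -/
theorem lens_fiber_bottom {K : Set F} (hconv : Convex ℝ K) {y : ℝ × ℝ} {s0 c t : ℝ}
    (hbot : ∀ s, (y, s) ∈ K → s0 ≤ s) (hct : c = 2 * s0 + 2 * t)
    {z : ℝ × ℝ} {a a' : ℝ} (ha : (z, a) ∈ lens K (y, c / 2)) (ha' : (z, a') ∈ lens K (y, c / 2)) :
    |a - a'| ≤ 2 * t := by
  have hmid : ∀ {u u' : ℝ}, (z, u) ∈ K → (2 : ℝ) • ((y, c / 2) : F) - (z, u') ∈ K →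
      s0 ≤ (u + c - u') / 2 := by
    intro u u' h1 h2
    have h3 := hconv h1 h2 (by norm_num : (0 : ℝ) ≤ 1 / 2) (by norm_num : (0 : ℝ) ≤ 1 / 2) (by norm_num)
    have he : (1 / 2 : ℝ) • ((z, u) : F) + (1 / 2 : ℝ) • ((2 : ℝ) • ((y, c / 2) : F) - (z, u')) =
        (y, (u + c - u') / 2) := by
      ext <;> simp <;> ring
    rw [he] at h3
    exact hbot _ h3
  have h1 := hmid ha.1 ha'.2
  have h2 := hmid ha'.1 ha.2
  rw [abs_le]
  constructor <;> linarith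

/-- The fibre estimate for a lens near the top of a chord. -/
theorem lens_fiber_top {K : Set F} (hconv : Convex ℝ K) {y : ℝ × ℝ} {s1 c t : ℝ}
    (htop : ∀ s, (y, s) ∈ K → s ≤ s1) (hct : c = 2 * s1 - 2 * t)
    {z : ℝ × ℝ} {a a' : ℝ} (ha : (z, a) ∈ lens K (y, c / 2)) (ha' : (z, a') ∈ lens K (y, c / 2)) :
    |a - a'| ≤ 2 * t := by
  have hmid : ∀ {u u' : ℝ}, (z, u) ∈ K → (2 : ℝ) • ((y, c / 2) : F) - (z, u') ∈ K →
      (u + c - u') / 2 ≤ s1 := by
    intro u u' h1 h2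
    have h3 := hconv h1 h2 (by norm_num : (0 : ℝ) ≤ 1 / 2) (by norm_num : (0 : ℝ) ≤ 1 / 2) (by norm_num)
    have he : (1 / 2 : ℝ) • ((z, u) : F) + (1 / 2 : ℝ) • ((2 : ℝ) • ((y, c / 2) : F) - (z, u')) =
        (y, (u + c - u') / 2) := by
      ext <;> simp <;> ring
    rw [he] at h3
    exact htop _ h3
  have h1 := hmid ha.1 ha'.2
  have h2 := hmid ha'.1 ha.2
  rw [abs_le]
  constructor <;> linarith

/-- If the direction set is large, then it contains the vector `w`. -/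
theorem mem_SS_of_large {K : Set F} (hc : IsCompact K) (hconv : Convex ℝ K) {y : ℝ × ℝ}
    {I : Set ℝ} (hIc : IsClosed I) (hIconv : Convex ℝ I) {s : ℝ} (hys : (y, s) ∈ K) (hI0 : s + s ∈ I)
    {p p' : ℝ × ℝ} (hp : p ∈ Prod.fst '' K) (hp' : p' ∈ Prod.fst '' K) {m : ℕ} (hm : 0 < m)
    {θ L : ℝ} (hL : 0 ≤ L)
    (hlarge : ENNReal.ofReal θ ≤ ENNReal.ofReal L * volume (SS K y I))
    (hpack : ENNReal.ofReal (4 * L) * volume (Prod.fst '' K) < ((m : ℝ≥0∞) + 1) * ENNReal.ofReal θ) :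
    ((1 : ℝ) / (2 * m)) • (p - p') ∈ SS K y I := by
  by_contra hw
  have h0 : (0 : ℝ × ℝ) ∈ SS K y I := ⟨s, s, by simpa using hys, by simpa using hys, hI0⟩
  have hP : Convex ℝ (Prod.fst '' K) := hconv.linear_image (LinearMap.fst ℝ (ℝ × ℝ) ℝ)
  have hpk := packing (isCompact_SS hc y hIc) (convex_SS hconv y hIconv) h0
    (fun v hv => neg_mem_SS hv) hP (fun v hv => add_mem_fst_of_mem_SS hv) hp hp' hm hw
  have hchain : ((m : ℝ≥0∞) + 1) * ENNReal.ofReal θ ≤ ENNReal.ofReal (4 * L) * volume (Prod.fst '' K) := by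
    calc ((m : ℝ≥0∞) + 1) * ENNReal.ofReal θ
        ≤ ((m : ℝ≥0∞) + 1) * (ENNReal.ofReal L * volume (SS K y I)) := by gcongr
      _ = ENNReal.ofReal L * (((m : ℝ≥0∞) + 1) * volume (SS K y I)) := by ring
      _ ≤ ENNReal.ofReal L * (4 * volume (Prod.fst '' K)) := by gcongr
      _ = ENNReal.ofReal (4 * L) * volume (Prod.fst '' K) := by
          rw [mul_comm (4 : ℝ) L, ENNReal.ofReal_mul hL, mul_assoc]
          congr 2
          simp
  exact absurd hpack (not_lt.mpr hchain)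

/-- **Chord loss.** If a chord of length `ℓ` has points with lens at least `θ` within `ε ℓ` of
both of its ends, then the volume of the body is large. -/
theorem chord_loss {K : Set F} (hc : IsCompact K) (hconv : Convex ℝ K) {y : ℝ × ℝ}
    {s0 s1 : ℝ} (hs01 : s0 ≤ s1) (hs : chordSet K y = Icc s0 s1) {ε θ ϑ : ℝ} {m : ℕ} (hm : 0 < m)
    (hε : 0 ≤ ε) {t1 t2 : ℝ} (ht1 : 0 ≤ t1) (ht1' : t1 ≤ ε * (s1 - s0)) (ht2 : 0 ≤ t2)
    (ht2' : t2 ≤ ε * (s1 - s0))
    (hg1 : (y, s0 + t1) ∈ good K (ENNReal.ofReal θ)) (hg2 : (y, s1 - t2) ∈ good K (ENNReal.ofReal θ))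
    (hpack : ENNReal.ofReal (8 * ε * (s1 - s0)) * volume (Prod.fst '' K) <
      ((m : ℝ≥0∞) + 1) * ENNReal.ofReal θ)
    (hup : ∀ z ∈ Prod.fst '' K, chordLen K z ≤ (1 + ϑ) * (s1 - s0))
    (hℓ : 0 < (1 - 4 * ε - ϑ) * (s1 - s0)) :
    ENNReal.ofReal ((1 - 4 * ε - ϑ) * (s1 - s0) * (1 / 3 + (1 / (m : ℝ)) / 6)) *
      volume (Prod.fst '' K) ≤ volume K := by
  set ℓ : ℝ := s1 - s0 with hℓdef
  have hℓ0 : 0 ≤ ℓ := by rw [hℓdef]; linarith
  have hm' : (0 : ℝ) < m := by exact_mod_cast hm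
  have hmem : ∀ s, (y, s) ∈ K ↔ s ∈ Icc s0 s1 := by
    intro s
    have : s ∈ chordSet K y ↔ s ∈ Icc s0 s1 := by rw [hs]
    exact this
  have hbot : ∀ s, (y, s) ∈ K → s0 ≤ s := fun s h => ((hmem s).mp h).1
  have htop : ∀ s, (y, s) ∈ K → s ≤ s1 := fun s h => ((hmem s).mp h).2
  have hy0 : (y, s0) ∈ K := (hmem s0).mpr (left_mem_Icc.mpr hs01)
  have hy1 : (y, s1) ∈ K := (hmem s1).mpr (right_mem_Icc.mpr hs01)
  have hyP : y ∈ Prod.fst '' K := ⟨_, hy0, rfl⟩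
  set P : Set (ℝ × ℝ) := Prod.fst '' K with hPdef
  have hPc : IsCompact P := hc.image continuous_fst
  obtain ⟨p, hp, p', hp', hpp, hmax⟩ := exists_longest_horizontal hPc ⟨y, hyP⟩
  have hLh0 : 0 ≤ p.1 - p'.1 := by
    have := hmax y hyP y hyP rfl
    simpa using this
  set L2 : ℝ := 2 * (ε * ℓ) with hL2
  have hL2nn : 0 ≤ L2 := by positivity
  have h8 : 4 * L2 = 8 * ε * ℓ := by rw [hL2]; ring
  -- the low pairs
  have hlow : ((1 : ℝ) / (2 * m)) • (p - p') ∈ SS K y (Iic (2 * s0 + L2)) := by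
    refine mem_SS_of_large hc hconv isClosed_Iic (convex_Iic _) hy0 ?_ hp hp' hm (θ := θ) hL2nn ?_ ?_
    · show s0 + s0 ≤ 2 * s0 + L2
      linarith
    · have hvol := volume_lens_le (K := K) hc y (c := 2 * s0 + 2 * t1) (L := L2) hL2nn
        (I := Iic (2 * s0 + L2)) isClosed_Iic (by
          show 2 * s0 + 2 * t1 ≤ 2 * s0 + L2
          rw [hL2]; linarith)
        (by
          intro z a a' ha ha'
          have := lens_fiber_bottom hconv hbot rfl ha ha'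
          rw [hL2]; linarith)
      have he : (2 * s0 + 2 * t1) / 2 = s0 + t1 := by ring
      rw [he] at hvol
      exact hg1.2.trans hvol
    · rw [h8]; exact hpack
  -- the high pairs
  have hhigh : ((1 : ℝ) / (2 * m)) • (p - p') ∈ SS K y (Ici (2 * s1 - L2)) := by
    refine mem_SS_of_large hc hconv isClosed_Ici (convex_Ici _) hy1 ?_ hp hp' hm (θ := θ) hL2nn ?_ ?_
    · show 2 * s1 - L2 ≤ s1 + s1
      linarith
    · have hvol := volume_lens_le (K := K) hc y (c := 2 * s1 - 2 * t2) (L := L2) hL2nn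
        (I := Ici (2 * s1 - L2)) isClosed_Ici (by
          show 2 * s1 - L2 ≤ 2 * s1 - 2 * t2
          rw [hL2]; linarith)
        (by
          intro z a a' ha ha'
          have := lens_fiber_top hconv htop rfl ha ha'
          rw [hL2]; linarith)
      have he : (2 * s1 - 2 * t2) / 2 = s1 - t2 := by ring
      rw [he] at hvol
      exact hg2.2.trans hvol
    · rw [h8]; exact hpack
  set d : ℝ := (p.1 - p'.1) / (2 * m) with hd
  have hd0 : 0 ≤ d := by positivity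
  have hw : ((1 : ℝ) / (2 * m)) • (p - p') = (d, 0) := by
    ext
    · simp only [Prod.smul_fst, Prod.fst_sub, smul_eq_mul, hd]
      field_simp
    · simp [hpp]
  rw [hw] at hlow hhigh
  obtain ⟨a, b, ha, hb, hab⟩ := hlow
  obtain ⟨a', b', ha', hb', hab'⟩ := hhigh
  have hab1 : a + b ≤ 2 * s0 + L2 := hab
  have hab2 : 2 * s1 - L2 ≤ a' + b' := hab'
  have he1 : y + ((d, 0) : ℝ × ℝ) = (y.1 + d, y.2) := by ext <;> simp
  have he2 : y - ((d, 0) : ℝ × ℝ) = (y.1 - d, y.2) := by ext <;> simp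
  rw [he1] at ha ha'
  rw [he2] at hb hb'
  have hl1 := chordLen_ge_of_mem hc hconv ha ha'
  have hl2 := chordLen_ge_of_mem hc hconv hb hb'
  have hmemp : (y.1 + d, y.2) ∈ P := ⟨_, ha, rfl⟩
  have hmemm : (y.1 - d, y.2) ∈ P := ⟨_, hb, rfl⟩
  have hu1 := hup _ hmemp
  have hu2 := hup _ hmemm
  set ℓ' : ℝ := (1 - 4 * ε - ϑ) * ℓ with hℓ'
  have hsum : 2 * ℓ - 4 * (ε * ℓ) ≤ chordLen K (y.1 + d, y.2) + chordLen K (y.1 - d, y.2) := by
    have : 2 * ℓ = 2 * s1 - 2 * s0 := by rw [hℓdef]; ring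
    rw [hL2] at hab1 hab2
    linarith
  have hlp : ℓ' ≤ chordLen K (y.1 + d, y.2) := by
    have : ℓ' = 2 * ℓ - 4 * (ε * ℓ) - (1 + ϑ) * ℓ := by rw [hℓ']; ring
    linarith
  have hlm : ℓ' ≤ chordLen K (y.1 - d, y.2) := by
    have : ℓ' = 2 * ℓ - 4 * (ε * ℓ) - (1 + ϑ) * ℓ := by rw [hℓ']; ring
    linarith
  have hseg : ∀ s ∈ Icc (-d) d, (y.1 + s, y.2) ∈ P ∧ ℓ' ≤ chordLen K (y.1 + s, y.2) := by
    intro s hs'
    rcases hd0.eq_or_lt with hd00 | hdpos
    · have hs0 : s = d := by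
        have h1 := hs'.1
        have h2 := hs'.2
        linarith
      rw [hs0]
      exact ⟨hmemp, hlp⟩
    · exact chordLen_ge_on_segment hc hconv hmemp hmemm hlp hlm hdpos hs'
  have hslices : volume P ≤ ENNReal.ofReal (p.1 - p'.1) * volume (Prod.snd '' P) :=
    volume_le_of_slices P hPc _ hLh0 (by
      intro x x' u hx hx'
      rw [abs_le]
      constructor
      · have := hmax _ hx' _ hx rfl
        simp only at this
        linarith
      · have := hmax _ hx _ hx' rfl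
        simp only at this
        linarith)
  have hgain : ENNReal.ofReal (1 / (m : ℝ)) * volume P ≤
      ENNReal.ofReal (2 * d) * volume (Prod.snd '' P) := by
    have he : 2 * d = (1 / (m : ℝ)) * (p.1 - p'.1) := by
      rw [hd]; field_simp
    rw [he, ENNReal.ofReal_mul (by positivity), mul_assoc]
    gcongr
  exact volume_gain hc hconv hd0 hℓ (by positivity) hyP hseg hgain

end Vale.Agent.P243G
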