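import Vale.Agent.P243G.Section
import Vale.Agent.P243.Main

/-!
Every finite covering of a convex body in three-space by cylinders has relative area strictly above
one third, with an explicit gain.
-/

open MeasureTheory Set Module
open scoped ENNReal Pointwise Topology

namespace Vale.Agent.P243G

open Vale.Agent.P243 (E planeCoord exists_decomp exists_haar_transfer chordSet chordLen chordSet_eq_Icc
  chordLen_eq chordLen_nonneg)

theorem preimage_lens (T : F ≃L[ℝ] E) (K : Set E) (x : F) :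
    lens (T ⁻¹' K) x = T ⁻¹' lens K (T x) := by
  ext p
  simp only [lens, mem_ofPred_eq, mem_preimage, map_sub, map_smul]

theorem volume_preimage_eq (T : F ≃L[ℝ] E) {c : ℝ≥0∞}
    (hcA : ∀ A : Set F, volume A = c * volume (T '' A)) (X : Set E) :
    volume (T ⁻¹' X) = c * volume X := by
  rw [hcA, Set.image_preimage_eq _ T.surjective]

theorem preimage_good (T : F ≃L[ℝ] E) (K : Set E) {c : ℝ≥0∞} (hc0 : c ≠ 0) (hct : c ≠ ⊤)
    (hcA : ∀ A : Set F, volume A = c * volume (T '' A)) (θ : ℝ≥0∞) :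
    good (T ⁻¹' K) (c * θ) = T ⁻¹' good K θ := by
  ext x
  simp only [good, mem_ofPred_eq, mem_preimage]
  rw [preimage_lens, volume_preimage_eq T hcA, ENNReal.mul_le_mul_iff_right hc0 hct]

/-- The elementary facts about a frame. -/
theorem frame_facts {K : Set E} (hc : IsCompact K) (hint : (interior K).Nonempty)
    {π : E → ℝ × ℝ} (T : F ≃L[ℝ] E) (hπT : ∀ x, π (T x) = x.1) :
    IsCompact (T ⁻¹' K) ∧ Prod.fst '' (T ⁻¹' K) = π '' K ∧ volume (π '' K) ≠ 0 ∧
      volume (π '' K) ≠ ⊤ ∧ volume K ≠ 0 ∧ volume K ≠ ⊤ := by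
  have hK'c : IsCompact (T ⁻¹' K) := T.toHomeomorph.isCompact_preimage.mpr hc
  have hfst : Prod.fst '' (T ⁻¹' K) = π '' K := by
    ext z
    constructor
    · rintro ⟨x, hx, rfl⟩
      exact ⟨T x, hx, hπT x⟩
    · rintro ⟨x, hx, rfl⟩
      refine ⟨T.symm x, ?_, ?_⟩
      · show T (T.symm x) ∈ K
        simpa using hx
      · have := hπT (T.symm x)
        simpa using this.symm
  refine ⟨hK'c, hfst, ?_, ?_, ?_, hc.measure_lt_top.ne⟩
  · obtain ⟨x, hx⟩ := hint
    have hU : IsOpen (Prod.fst '' (T ⁻¹' interior K) : Set (ℝ × ℝ)) :=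
      isOpenMap_fst _ (isOpen_interior.preimage T.continuous)
    have hne : (Prod.fst '' (T ⁻¹' interior K) : Set (ℝ × ℝ)).Nonempty := by
      refine ⟨_, T.symm x, ?_, rfl⟩
      show T (T.symm x) ∈ interior K
      simpa using hx
    have hsub : (Prod.fst '' (T ⁻¹' interior K) : Set (ℝ × ℝ)) ⊆ π '' K := by
      rw [← hfst]
      exact image_mono (preimage_mono interior_subset)
    exact ((hU.measure_pos _ hne).trans_le (measure_mono hsub)).ne'
  · rw [← hfst]
    exact (hK'c.image continuous_fst).measure_lt_top.ne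
  · obtain ⟨x, hx⟩ := hint
    exact ((isOpen_interior.measure_pos _ ⟨x, hx⟩).trans_le (measure_mono interior_subset)).ne'

/-- The Fubini bound transferred to three-space. -/
theorem cylinder_transfer {K : Set E} (hc : IsCompact K) (hconv : Convex ℝ K)
    (hint : (interior K).Nonempty) {π : E → ℝ × ℝ} (T : F ≃L[ℝ] E) (hπT : ∀ x, π (T x) = x.1)
    {X : Set E} (hXm : MeasurableSet X) (hXK : X ⊆ K) {M : ℝ} (hM : 0 ≤ M)
    (hsec : ∀ y ∈ interior (Prod.fst '' (T ⁻¹' K)), volume {s | (y, s) ∈ T ⁻¹' X} ≤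
      ENNReal.ofReal (M * (volume (T ⁻¹' K)).toReal / (volume (Prod.fst '' (T ⁻¹' K))).toReal))
    {B : Set (ℝ × ℝ)} (hB : MeasurableSet B) :
    volume (X ∩ π ⁻¹' B) ≤ ENNReal.ofReal M * volume K * (volume B / volume (π '' K)) := by
  obtain ⟨hK'c, hfst, hA0, hAt, hV0, hVt⟩ := frame_facts hc hint T hπT
  obtain ⟨c, hct, hc0, hcA⟩ := exists_haar_transfer (volume : Measure F) (volume : Measure E) T
  have hK'conv : Convex ℝ (T ⁻¹' K) := hconv.linear_preimage T.toLinearMap
  have hfub := fubini_bound hK'c hK'conv (C := T ⁻¹' X)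
    (T.continuous.measurable hXm) (preimage_mono hXK) hsec hB
  have hpre : T ⁻¹' X ∩ Prod.fst ⁻¹' B = T ⁻¹' (X ∩ π ⁻¹' B) := by
    ext x
    simp only [mem_inter_iff, mem_preimage, hπT]
  rw [hpre, volume_preimage_eq T hcA, hfst, volume_preimage_eq T hcA] at hfub
  have hmul : ENNReal.ofReal (M * (c * volume K).toReal / (volume (π '' K)).toReal) * volume B =
      c * (ENNReal.ofReal M * volume K * (volume B / volume (π '' K))) := by
    have hne : (c * volume K) ≠ ⊤ := ENNReal.mul_ne_top hct hVt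
    rw [ENNReal.ofReal_div_of_pos (ENNReal.toReal_pos hA0 hAt), ENNReal.ofReal_toReal hAt,
      ENNReal.ofReal_mul hM, ENNReal.ofReal_toReal hne, div_eq_mul_inv, div_eq_mul_inv]
    ring
  rw [hmul] at hfub
  exact (ENNReal.mul_le_mul_iff_right hc0 hct).mp hfub

/-- The parameters of the proof. -/
noncomputable def eps0 : ℝ := (1 / 2) ^ 73
noncomputable def tau0 : ℝ := (1 / 2) ^ 136
def m0 : ℕ := 25 * 2 ^ 63
noncomputable def a0 : ℝ := (1 / 2) ^ 84
def k0 : ℕ := 40

theorem eps0_pos : 0 < eps0 := by unfold eps0; positivity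
theorem tau0_pos : 0 < tau0 := by unfold tau0; positivity
theorem m0_pos : 0 < m0 := by unfold m0; positivity
theorem a0_pos : 0 < a0 := by unfold a0; positivity

theorem eps0_small : 5 * eps0 < 1 := by unfold eps0; norm_num

theorem num1 : 24 * eps0 < ((m0 : ℝ) + 1) * tau0 := by
  unfold eps0 tau0 m0; norm_num

theorem num2 : 1 ≤ (1 - 5 * eps0) * (1 / 3 + (1 / (m0 : ℝ)) / 6) * (3 - 2 * eps0) := by
  unfold eps0 m0; norm_num

theorem a0_small : 48 * a0 ≤ 1 := by unfold a0; norm_num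

theorem k0_small : 4 * (1 / 4 : ℝ) ^ k0 ≤ 1 := by unfold k0; norm_num

theorem log_a0_sq : (Real.log a0) ^ 2 ≤ 3391 := by
  have h : Real.log a0 = -(84 * Real.log 2) := by
    unfold a0
    rw [Real.log_pow, one_div, Real.log_inv]
    norm_num
  rw [h]
  have h1 := Real.log_two_lt_d9
  have h2 : 0 < Real.log 2 := Real.log_pos (by norm_num)
  nlinarith

/-- The lower bound for the relative volume of the good set. -/
noncomputable def kappa1 : ℝ :=
  (1 - eps0 / 3) * ((1 - 48 * a0) * (1 - 4 * (1 / 4) ^ k0)) -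
    81 * 2 ^ k0 * (Real.log a0) ^ 2 * tau0

theorem kappa1_ge : (3 - 2 * eps0) * (1 / 3 + 1 / 10 ^ 24) ≤ kappa1 := by
  have h := log_a0_sq
  have h1 : 81 * (2 : ℝ) ^ k0 * (Real.log a0) ^ 2 * tau0 ≤ 81 * 2 ^ k0 * 3391 * tau0 := by
    have ht := tau0_pos
    have h2 : (0 : ℝ) < 81 * 2 ^ k0 := by positivity
    have := mul_le_mul_of_nonneg_left h h2.le
    exact mul_le_mul_of_nonneg_right this ht.le
  have h2 : (3 - 2 * eps0) * (1 / 3 + 1 / 10 ^ 24) ≤
      (1 - eps0 / 3) * ((1 - 48 * a0) * (1 - 4 * (1 / 4) ^ k0)) - 81 * 2 ^ k0 * 3391 * tau0 := by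
    unfold eps0 tau0 a0 k0; norm_num
  unfold kappa1
  linarith

theorem case1_ge : (3 - eps0) * (1 / 3 + 1 / 10 ^ 24) ≤ 1 := by
  unfold eps0; norm_num

/-- The general assembly of the covering inequality. -/
theorem assemble {K X : Set E} (hVt : volume K ≠ ⊤) (hV0 : volume K ≠ 0) (hXK : X ⊆ K) {ι : Type*}
    [Fintype ι] (π : ι → E → ℝ × ℝ) (B : ι → Set (ℝ × ℝ)) (hcov : K ⊆ ⋃ i, π i ⁻¹' B i)
    {κ1 κ2 : ℝ} (hκ2 : 0 ≤ κ2) (hκ : κ2 * (1 / 3 + 1 / 10 ^ 24) ≤ κ1) (hκ20 : 0 < κ2)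
    (hmass : ENNReal.ofReal κ1 * volume K ≤ volume X)
    (hone : ∀ i, volume (X ∩ π i ⁻¹' B i) ≤
      ENNReal.ofReal κ2 * volume K * (volume (B i) / volume (π i '' K))) :
    (1 / 3 + 1 / 10 ^ 24 : ℝ≥0∞) ≤ ∑ i, volume (B i) / volume (π i '' K) := by
  set S := ∑ i, volume (B i) / volume (π i '' K) with hS
  have hsub : X ⊆ ⋃ i, X ∩ π i ⁻¹' B i := by
    intro x hx
    obtain ⟨i, hi⟩ := mem_iUnion.mp (hcov (hXK hx))
    exact mem_iUnion.mpr ⟨i, hx, hi⟩
  have hle : volume X ≤ ∑ i, volume (X ∩ π i ⁻¹' B i) := by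
    refine (measure_mono hsub).trans ?_
    refine (measure_iUnion_le _).trans ?_
    rw [tsum_fintype]
  have hchain : ENNReal.ofReal κ1 * volume K ≤ ENNReal.ofReal κ2 * S * volume K := by
    calc ENNReal.ofReal κ1 * volume K ≤ volume X := hmass
      _ ≤ ∑ i, volume (X ∩ π i ⁻¹' B i) := hle
      _ ≤ ∑ i, ENNReal.ofReal κ2 * volume K * (volume (B i) / volume (π i '' K)) :=
          Finset.sum_le_sum fun i _ => hone i
      _ = ENNReal.ofReal κ2 * volume K * S := by rw [hS, Finset.mul_sum]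
      _ = ENNReal.ofReal κ2 * S * volume K := by ring
  have hcancel : ENNReal.ofReal κ1 ≤ ENNReal.ofReal κ2 * S :=
    (ENNReal.mul_le_mul_iff_left hV0 hVt).mp hchain
  have h1 : (1 / 3 + 1 / 10 ^ 24 : ℝ≥0∞) = ENNReal.ofReal (1 / 3 + 1 / 10 ^ 24) := by
    rw [ENNReal.ofReal_add (by norm_num) (by norm_num), ENNReal.ofReal_div_of_pos (by norm_num),
      ENNReal.ofReal_div_of_pos (by norm_num)]
    simp
  have h2 : ENNReal.ofReal κ2 * ENNReal.ofReal (1 / 3 + 1 / 10 ^ 24) ≤ ENNReal.ofReal κ2 * S := by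
    rw [← ENNReal.ofReal_mul hκ2]
    exact (ENNReal.ofReal_le_ofReal hκ).trans hcancel
  rw [h1]
  exact (ENNReal.mul_le_mul_iff_right (by simpa using hκ20) ENNReal.ofReal_ne_top).mp h2

theorem measurableSet_good_E {K : Set E} (hK : IsClosed K) (θ : ℝ≥0∞) : MeasurableSet (good K θ) := by
  have hZ : IsClosed {q : E × E | q.2 ∈ K ∧ (2 : ℝ) • q.1 - q.2 ∈ K} :=
    (hK.preimage continuous_snd).inter (hK.preimage (by fun_prop))
  have hm : Measurable fun x : E =>
      volume (Prod.mk x ⁻¹' {q : E × E | q.2 ∈ K ∧ (2 : ℝ) • q.1 - q.2 ∈ K}) :=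
    measurable_measure_prodMk_left hZ.measurableSet
  have : good K θ = K ∩ {x | θ ≤ volume
      (Prod.mk x ⁻¹' {q : E × E | q.2 ∈ K ∧ (2 : ℝ) • q.1 - q.2 ∈ K})} := rfl
  rw [this]
  exact hK.measurableSet.inter (measurableSet_le measurable_const hm)

theorem good_subset {X : Type*} [AddCommGroup X] [Module ℝ X] [MeasureSpace X] (K : Set X)
    (θ : ℝ≥0∞) : good K θ ⊆ K := fun _ hx => hx.1

/-- The good set transfers along a frame. -/
theorem good_transfer (T : F ≃L[ℝ] E) {K : Set E} (hVt : volume K ≠ ⊤) {τ : ℝ} (hτ : 0 ≤ τ) :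
    T ⁻¹' good K (ENNReal.ofReal τ * volume K) =
      good (T ⁻¹' K) (ENNReal.ofReal (τ * (volume (T ⁻¹' K)).toReal)) := by
  obtain ⟨c, hct, hc0, hcA⟩ := exists_haar_transfer (volume : Measure F) (volume : Measure E) T
  rw [← preimage_good T K hc0 hct hcA]
  congr 1
  rw [volume_preimage_eq T hcA, ENNReal.ofReal_mul hτ, ENNReal.ofReal_toReal
    (ENNReal.mul_ne_top hct hVt)]
  ring

/-- The bound for one cylinder, for the good set. -/
theorem good_cylinder {K : Set E} (hc : IsCompact K) (hconv : Convex ℝ K)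
    (hint : (interior K).Nonempty) {π : E → ℝ × ℝ} (T : F ≃L[ℝ] E) (hπT : ∀ x, π (T x) = x.1)
    {B : Set (ℝ × ℝ)} (hB : MeasurableSet B) :
    volume (good K (ENNReal.ofReal tau0 * volume K) ∩ π ⁻¹' B) ≤
      ENNReal.ofReal (3 - 2 * eps0) * volume K * (volume B / volume (π '' K)) := by
  obtain ⟨hK'c, hfst, hA0, hAt, hV0, hVt⟩ := frame_facts hc hint T hπT
  obtain ⟨c, hct, hc0, hcA⟩ := exists_haar_transfer (volume : Measure F) (volume : Measure E) T
  have hK'conv : Convex ℝ (T ⁻¹' K) := hconv.linear_preimage T.toLinearMap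
  have hε := eps0_pos
  have hε5 := eps0_small
  refine cylinder_transfer hc hconv hint T hπT (measurableSet_good_E hc.isClosed _)
    (good_subset _ _) (by linarith) ?_ hB
  intro y hy
  rw [good_transfer T hVt tau0_pos.le]
  refine section_bound hK'c hK'conv m0_pos hε hε5 tau0_pos num1 num2 ?_ ?_ (interior_subset hy)
  · rw [volume_preimage_eq T hcA]
    exact ENNReal.toReal_pos (mul_ne_zero hc0 hV0) (ENNReal.mul_ne_top hct hVt)
  · rw [hfst]
    exact ENNReal.toReal_pos hA0 hAt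

/-- The bound for one cylinder, when all chords are short. -/
theorem short_cylinder {K : Set E} (hc : IsCompact K) (hconv : Convex ℝ K)
    (hint : (interior K).Nonempty) {π : E → ℝ × ℝ} (T : F ≃L[ℝ] E) (hπT : ∀ x, π (T x) = x.1)
    {B : Set (ℝ × ℝ)} (hB : MeasurableSet B)
    (hshort : ∀ y ∈ interior (Prod.fst '' (T ⁻¹' K)),
      chordLen (T ⁻¹' K) y * (volume (Prod.fst '' (T ⁻¹' K))).toReal ≤
        (3 - eps0) * (volume (T ⁻¹' K)).toReal) :
    volume (K ∩ π ⁻¹' B) ≤ ENNReal.ofReal (3 - eps0) * volume K * (volume B / volume (π '' K)) := by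
  obtain ⟨hK'c, hfst, hA0, hAt, hV0, hVt⟩ := frame_facts hc hint T hπT
  have hK'conv : Convex ℝ (T ⁻¹' K) := hconv.linear_preimage T.toLinearMap
  have hε5 := eps0_small
  have hε := eps0_pos
  refine cylinder_transfer hc hconv hint T hπT hc.measurableSet subset_rfl (by linarith) ?_ hB
  intro y hy
  have hApos : 0 < (volume (Prod.fst '' (T ⁻¹' K))).toReal := by
    rw [hfst]
    exact ENNReal.toReal_pos hA0 hAt
  obtain ⟨s0, s1, hs01, hs⟩ := chordSet_eq_Icc hK'c hK'conv (interior_subset hy)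
  have hlen := chordLen_eq hs01 hs
  have hset : {s | (y, s) ∈ T ⁻¹' K} = Icc s0 s1 := hs
  rw [hset, Real.volume_Icc]
  apply ENNReal.ofReal_le_ofReal
  rw [le_div_iff₀ hApos, ← hlen]
  exact hshort y hy

/-- In the presence of a long chord the good set has large volume. -/
theorem long_mass {K : Set E} (hc : IsCompact K) (hconv : Convex ℝ K)
    (hint : (interior K).Nonempty) {π : E → ℝ × ℝ} (T : F ≃L[ℝ] E) (hπT : ∀ x, π (T x) = x.1)
    {y : ℝ × ℝ} (hy : y ∈ interior (Prod.fst '' (T ⁻¹' K)))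
    (hlong : (3 - eps0) * (volume (T ⁻¹' K)).toReal <
        chordLen (T ⁻¹' K) y * (volume (Prod.fst '' (T ⁻¹' K))).toReal)
    (hκ : 0 ≤ kappa1) :
    ENNReal.ofReal kappa1 * volume K ≤ volume (good K (ENNReal.ofReal tau0 * volume K)) := by
  obtain ⟨hK'c, hfst, hA0, hAt, hV0, hVt⟩ := frame_facts hc hint T hπT
  obtain ⟨c, hct, hc0, hcA⟩ := exists_haar_transfer (volume : Measure F) (volume : Measure E) T
  have hK'conv : Convex ℝ (T ⁻¹' K) := hconv.linear_preimage T.toLinearMap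
  have hlg := large_good hK'c hK'conv hy tau0_pos.le a0_pos a0_small k0_small hlong
  rw [← good_transfer T hVt tau0_pos.le, volume_preimage_eq T hcA, volume_preimage_eq T hcA] at hlg
  set G := volume (good K (ENNReal.ofReal tau0 * volume K)) with hG
  have hGt : G ≠ ⊤ :=
    ((measure_mono (good_subset K _)).trans_lt hc.measure_lt_top).ne
  have hκ' : kappa1 * (c * volume K).toReal ≤ (c * G).toReal := hlg
  have hmul : c * (ENNReal.ofReal kappa1 * volume K) ≤ c * G := by
    have h1 := ENNReal.ofReal_le_ofReal hκ'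
    rw [ENNReal.ofReal_mul hκ, ENNReal.ofReal_toReal (ENNReal.mul_ne_top hct hVt),
      ENNReal.ofReal_toReal (ENNReal.mul_ne_top hct hGt)] at h1
    calc c * (ENNReal.ofReal kappa1 * volume K) = ENNReal.ofReal kappa1 * (c * volume K) := by ring
      _ ≤ c * G := h1
  exact (ENNReal.mul_le_mul_iff_right hc0 hct).mp hmul

/-- **Main theorem.** Every finite covering of a convex body in Euclidean three-space by cylinders
has relative base area at least `1 / 3 + 1 / 10 ^ 24`. -/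
theorem main_general {K : Set E} (hc : IsCompact K) (hconv : Convex ℝ K)
    (hint : (interior K).Nonempty) {ι : Type*} [Fintype ι]
    (v w : ι → E) (hv : ∀ i, ‖v i‖ = 1) (hw : ∀ i, ‖w i‖ = 1)
    (hvw : ∀ i, inner ℝ (v i) (w i) = (0 : ℝ))
    (B : ι → Set (ℝ × ℝ)) (hB : ∀ i, MeasurableSet (B i))
    (hcov : K ⊆ ⋃ i, planeCoord (v i) (w i) ⁻¹' B i) :
    (1 / 3 + 1 / 10 ^ 24 : ℝ≥0∞) ≤ ∑ i, volume (B i) / volume (planeCoord (v i) (w i) '' K) := by
  choose T hT using fun i => exists_decomp (v i) (w i) (hv i) (hw i) (hvw i)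
  set π : ι → E → ℝ × ℝ := fun i => planeCoord (v i) (w i) with hπ
  have hVt : volume K ≠ ⊤ := hc.measure_lt_top.ne
  have hV0 : volume K ≠ 0 :=
    let ⟨x, hx⟩ := hint
    ((isOpen_interior.measure_pos _ ⟨x, hx⟩).trans_le (measure_mono interior_subset)).ne'
  have hKm : MeasurableSet K := hc.measurableSet
  set θ : ℝ≥0∞ := ENNReal.ofReal tau0 * volume K with hθ
  -- the dichotomy
  by_cases hlong : ∃ i, ∃ y ∈ interior (Prod.fst '' (T i ⁻¹' K)),
      (3 - eps0) * (volume (T i ⁻¹' K)).toReal <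
        chordLen (T i ⁻¹' K) y * (volume (Prod.fst '' (T i ⁻¹' K))).toReal
  · -- there is a long chord
    obtain ⟨i, y, hy, hl⟩ := hlong
    have hε := eps0_pos
    have hε5 := eps0_small
    have hκ2 : 0 < 3 - 2 * eps0 := by linarith
    have hκ1 := kappa1_ge
    have hκ0 : 0 ≤ kappa1 := le_trans (by positivity) hκ1
    exact assemble hVt hV0 (good_subset K θ) π B hcov hκ2.le hκ1 hκ2
      (long_mass hc hconv hint (T i) (hT i) hy hl hκ0)
      (fun j => good_cylinder hc hconv hint (T j) (hT j) (hB j))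
  · -- all chords are short
    push Not at hlong
    have hε := eps0_pos
    have hε5 := eps0_small
    have hκ2 : 0 < 3 - eps0 := by linarith
    exact assemble hVt hV0 subset_rfl π B hcov hκ2.le case1_ge hκ2
      (by simp)
      (fun j => short_cylinder hc hconv hint (T j) (hT j) (hB j) (hlong j))

end Vale.Agent.P243G
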