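import Vale.Agent.P243G.Simplex
import Vale.Agent.P243.VolumeBound
import Vale.Agent.P243.Slice

/-!
Volume lower bounds in terms of long chords over a horizontal segment.
-/

open MeasureTheory Set Module
open scoped ENNReal Pointwise

namespace Vale.Agent.P243G

open Vale.Agent.P243 (chordSet chordLen chordSet_eq_Icc chordLen_eq chordLen_nonneg chordLen_concave
  mem_fst_image_of_convex integral_poly_scaled prod_volume_eq_lintegral measurable_chordLen
  volume_thicken_ge volume_le_of_slices)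

theorem chordLen_ge_of_mem {K : Set F} (hc : IsCompact K) (hconv : Convex ℝ K) {z : ℝ × ℝ} {a a' : ℝ}
    (ha : (z, a) ∈ K) (ha' : (z, a') ∈ K) : a' - a ≤ chordLen K z := by
  have hz : z ∈ Prod.fst '' K := ⟨(z, a), ha, rfl⟩
  obtain ⟨u0, u1, hu, hs⟩ := chordSet_eq_Icc hc hconv hz
  rw [chordLen_eq hu hs]
  have h1 : a ∈ chordSet K z := ha
  have h2 : a' ∈ chordSet K z := ha'
  rw [hs] at h1 h2
  linarith [h1.1, h2.2]

/-- The chord length is at least `ℓ` on a horizontal segment with this property at its ends. -/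
theorem chordLen_ge_on_segment {K : Set F} (hc : IsCompact K) (hconv : Convex ℝ K) {y : ℝ × ℝ}
    {d ℓ s : ℝ} (hp : (y.1 + d, y.2) ∈ Prod.fst '' K) (hm : (y.1 - d, y.2) ∈ Prod.fst '' K)
    (hlp : ℓ ≤ chordLen K (y.1 + d, y.2)) (hlm : ℓ ≤ chordLen K (y.1 - d, y.2))
    (hd : 0 < d) (hs : s ∈ Icc (-d) d) :
    (y.1 + s, y.2) ∈ Prod.fst '' K ∧ ℓ ≤ chordLen K (y.1 + s, y.2) := by
  have hα : 0 ≤ (d + s) / (2 * d) := div_nonneg (by linarith [hs.1]) (by positivity)
  have hβ : 0 ≤ (d - s) / (2 * d) := div_nonneg (by linarith [hs.2]) (by positivity)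
  have hαβ : (d + s) / (2 * d) + (d - s) / (2 * d) = 1 := by field_simp; ring
  have he : ((d + s) / (2 * d)) • (y.1 + d, y.2) + ((d - s) / (2 * d)) • (y.1 - d, y.2) =
      (y.1 + s, y.2) := by
    ext
    · simp only [Prod.fst_add, Prod.smul_fst, smul_eq_mul]
      field_simp
      ring
    · simp only [Prod.snd_add, Prod.smul_snd, smul_eq_mul]
      field_simp
      ring
  have hmem := mem_fst_image_of_convex hconv hp hm hα hβ hαβ
  have hcon := chordLen_concave hc hconv hp hm hα hβ hαβ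
  rw [he] at hmem hcon
  refine ⟨hmem, ?_⟩
  have h1 := mul_le_mul_of_nonneg_left hlp hα
  have h2 := mul_le_mul_of_nonneg_left hlm hβ
  calc ℓ = (d + s) / (2 * d) * ℓ + (d - s) / (2 * d) * ℓ := by rw [← add_mul, hαβ, one_mul]
    _ ≤ _ := by linarith

/-- The area of a level set of the chord length. -/
theorem level_area_ge {K : Set F} (hc : IsCompact K) (hconv : Convex ℝ K) {y : ℝ × ℝ} {d ℓ r : ℝ}
    (hd : 0 ≤ d) (hℓ : 0 < ℓ) (hr : 0 ≤ r)
    (hy : y ∈ Prod.fst '' K)
    (hseg : ∀ s ∈ Icc (-d) d, (y.1 + s, y.2) ∈ Prod.fst '' K ∧ ℓ ≤ chordLen K (y.1 + s, y.2))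
    (hgain : ENNReal.ofReal r * volume (Prod.fst '' K) ≤
      ENNReal.ofReal (2 * d) * volume (Prod.snd '' (Prod.fst '' K)))
    {t : ℝ} (ht : t ∈ Ioo (0 : ℝ) ℓ) :
    ENNReal.ofReal ((1 - t / ℓ) ^ 2 + t / ℓ * (1 - t / ℓ) * r) * volume (Prod.fst '' K) ≤
      volume {w | t ≤ chordLen K w} := by
  set P : Set (ℝ × ℝ) := Prod.fst '' K with hP
  have hPc : IsCompact P := hc.image continuous_fst
  set τ : ℝ := t / ℓ with hτ
  have hτ0 : 0 < τ := div_pos ht.1 hℓ
  have hτ1 : τ < 1 := (div_lt_one hℓ).mpr ht.2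
  have h1τ : 0 < 1 - τ := by linarith
  set Q : Set (ℝ × ℝ) := (fun x => τ • y + x) '' ((1 - τ) • P) with hQ
  have hQc : IsCompact Q := (hPc.smul (1 - τ)).image (by fun_prop)
  have hQ' : MeasurableSet {w | t ≤ chordLen K w} :=
    measurableSet_le measurable_const (measurable_chordLen hc)
  have hthick := volume_thicken_ge Q {w | t ≤ chordLen K w} hQc hQ' (τ * d) (by positivity) (by
    rintro _ ⟨_, ⟨p0, hp0, rfl⟩, rfl⟩ s hs
    have hs' : s / τ ∈ Icc (-d) d := by
      constructor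
      · rw [le_div_iff₀ hτ0]; linarith [hs.1]
      · rw [div_le_iff₀ hτ0]; linarith [hs.2]
    obtain ⟨hmem, hlen⟩ := hseg _ hs'
    have hcon := chordLen_concave hc hconv hp0 hmem h1τ.le hτ0.le (by ring)
    have hnn := chordLen_nonneg K p0
    have he : (1 - τ) • p0 + τ • (y.1 + s / τ, y.2) =
        (((τ • y + (1 - τ) • p0).1 + s), (τ • y + (1 - τ) • p0).2) := by
      ext
      · simp only [Prod.fst_add, Prod.smul_fst, smul_eq_mul]
        field_simp
        ring
      · simp only [Prod.snd_add, Prod.smul_snd, smul_eq_mul]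
        ring
    rw [he] at hcon
    show t ≤ chordLen K _
    have ht_eq : t = τ * ℓ := by rw [hτ]; field_simp
    rw [ht_eq]
    have h3 := mul_le_mul_of_nonneg_left hlen hτ0.le
    have h4 := mul_nonneg h1τ.le hnn
    linarith)
  have hvolQ : volume Q = ENNReal.ofReal ((1 - τ) ^ 2) * volume P := by
    rw [hQ, Set.image_add_left, measure_preimage_add, Measure.addHaar_smul_of_nonneg _ h1τ.le]
    simp
  have hsnd : Prod.snd '' Q = (fun u => τ * y.2 + u) '' ((1 - τ) • (Prod.snd '' P)) := by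
    ext u
    constructor
    · rintro ⟨_, ⟨_, ⟨p0, hp0, rfl⟩, rfl⟩, rfl⟩
      exact ⟨(1 - τ) * p0.2, ⟨p0.2, ⟨p0, hp0, rfl⟩, rfl⟩, by simp⟩
    · rintro ⟨_, ⟨_, ⟨p0, hp0, rfl⟩, rfl⟩, rfl⟩
      exact ⟨_, ⟨_, ⟨p0, hp0, rfl⟩, rfl⟩, by simp⟩
  have hvolS : volume (Prod.snd '' Q) = ENNReal.ofReal (1 - τ) * volume (Prod.snd '' P) := by
    rw [hsnd, Set.image_add_left, measure_preimage_add, Measure.addHaar_smul_of_nonneg _ h1τ.le]
    simp
  rw [hvolQ, hvolS] at hthick
  refine le_trans ?_ hthick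
  have hτd : ENNReal.ofReal (2 * (τ * d)) * (ENNReal.ofReal (1 - τ) * volume (Prod.snd '' P)) =
      ENNReal.ofReal (τ * (1 - τ)) * (ENNReal.ofReal (2 * d) * volume (Prod.snd '' P)) := by
    rw [← mul_assoc, ← mul_assoc (ENNReal.ofReal (τ * (1 - τ))),
      ← ENNReal.ofReal_mul (by positivity), ← ENNReal.ofReal_mul (by positivity)]
    congr 2
    ring
  rw [hτd]
  have hsplit : (1 - τ) ^ 2 + τ * (1 - τ) * r = (1 - τ) ^ 2 + (τ * (1 - τ)) * r := rfl
  rw [hsplit, ENNReal.ofReal_add (by positivity) (by positivity), add_mul,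
    ENNReal.ofReal_mul (by positivity), mul_assoc]
  gcongr

/-- **The volume lower bound with gain.** -/
theorem volume_gain {K : Set F} (hc : IsCompact K) (hconv : Convex ℝ K) {y : ℝ × ℝ} {d ℓ r : ℝ}
    (hd : 0 ≤ d) (hℓ : 0 < ℓ) (hr : 0 ≤ r)
    (hy : y ∈ Prod.fst '' K)
    (hseg : ∀ s ∈ Icc (-d) d, (y.1 + s, y.2) ∈ Prod.fst '' K ∧ ℓ ≤ chordLen K (y.1 + s, y.2))
    (hgain : ENNReal.ofReal r * volume (Prod.fst '' K) ≤
      ENNReal.ofReal (2 * d) * volume (Prod.snd '' (Prod.fst '' K))) :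
    ENNReal.ofReal (ℓ * (1 / 3 + r / 6)) * volume (Prod.fst '' K) ≤ volume K := by
  set P : Set (ℝ × ℝ) := Prod.fst '' K with hP
  have hvol : volume K = ∫⁻ w, ENNReal.ofReal (chordLen K w) := by
    rw [Measure.volume_eq_prod]
    exact prod_volume_eq_lintegral _ hc
  rw [hvol]
  have hmeas := measurable_chordLen hc
  rw [lintegral_eq_lintegral_meas_le volume (Filter.Eventually.of_forall (chordLen_nonneg K))
    hmeas.aemeasurable]
  have hcont : Continuous fun t : ℝ => (1 - t / ℓ) ^ 2 + t / ℓ * (1 - t / ℓ) * r := by fun_prop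
  calc ENNReal.ofReal (ℓ * (1 / 3 + r / 6)) * volume P
      = (∫⁻ t in Ioo (0 : ℝ) ℓ,
          ENNReal.ofReal ((1 - t / ℓ) ^ 2 + t / ℓ * (1 - t / ℓ) * r)) * volume P := by
        congr 1
        rw [← integral_poly_scaled r ℓ hℓ,
          intervalIntegral.integral_of_le hℓ.le,
          ofReal_integral_eq_lintegral_ofReal]
        · exact setLIntegral_congr (Ioo_ae_eq_Ioc).symm
        · exact (hcont.integrableOn_Icc.mono_set Ioc_subset_Icc_self)
        · refine (ae_restrict_iff' measurableSet_Ioc).mpr (Filter.Eventually.of_forall ?_)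
          intro t ht
          have hτ0 : 0 ≤ t / ℓ := div_nonneg ht.1.le hℓ.le
          have hτ1 : t / ℓ ≤ 1 := (div_le_one hℓ).mpr ht.2
          have : 0 ≤ 1 - t / ℓ := by linarith
          show (0 : ℝ) ≤ (1 - t / ℓ) ^ 2 + t / ℓ * (1 - t / ℓ) * r
          positivity
    _ = ∫⁻ t in Ioo (0 : ℝ) ℓ,
          ENNReal.ofReal ((1 - t / ℓ) ^ 2 + t / ℓ * (1 - t / ℓ) * r) * volume P := by
        rw [lintegral_mul_const]
        exact (ENNReal.continuous_ofReal.comp hcont).measurable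
    _ ≤ ∫⁻ t in Ioo (0 : ℝ) ℓ, volume {w | t ≤ chordLen K w} :=
        setLIntegral_mono' measurableSet_Ioo
          fun t ht => level_area_ge hc hconv hd hℓ hr hy hseg hgain ht
    _ ≤ ∫⁻ t in Ioi (0 : ℝ), volume {w | t ≤ chordLen K w} :=
        lintegral_mono_set (fun t ht => ht.1)

/-- **Rogers-Shephard.** The product of a chord length and the projected area is at most three
times the volume. -/
theorem chord_area_le {K : Set F} (hc : IsCompact K) (hconv : Convex ℝ K) {y : ℝ × ℝ}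
    (hy : y ∈ Prod.fst '' K) :
    ENNReal.ofReal (chordLen K y / 3) * volume (Prod.fst '' K) ≤ volume K := by
  rcases (chordLen_nonneg K y).eq_or_lt with hz | hpos
  · simp [← hz]
  have h := volume_gain hc hconv (y := y) (d := 0) (ℓ := chordLen K y) (r := 0) le_rfl hpos le_rfl hy
    (by
      intro s hs
      have hs0 : s = 0 := le_antisymm (by simpa using hs.2) (by simpa using hs.1)
      subst hs0
      simpa using hy)
    (by simp)
  have he : chordLen K y * (1 / 3 + 0 / 6) = chordLen K y / 3 := by ring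
  rwa [he] at h

end Vale.Agent.P243G
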