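import Vale.Agent.P243G.Gain

/-!
The sets of directions admitting low or high pairs of points, and a packing argument.
-/

open MeasureTheory Set Module
open scoped ENNReal Pointwise

namespace Vale.Agent.P243G

open Vale.Agent.P243 (chordSet chordLen chordSet_eq_Icc chordLen_eq chordLen_nonneg chordLen_concave
  mem_fst_image_of_convex volume_le_of_slices)

/-- Directions `v` such that `K` has points over `y + v` and `y - v` with sum of heights in `I`. -/
def SS (K : Set F) (y : ℝ × ℝ) (I : Set ℝ) : Set (ℝ × ℝ) :=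
  {v | ∃ a b : ℝ, (y + v, a) ∈ K ∧ (y - v, b) ∈ K ∧ a + b ∈ I}

theorem isCompact_SS {K : Set F} (hc : IsCompact K) (y : ℝ × ℝ) {I : Set ℝ} (hI : IsClosed I) :
    IsCompact (SS K y I) := by
  have hZ : IsCompact ((K ×ˢ K) ∩ {u : F × F | u.1.1 + u.2.1 = (2 : ℝ) • y ∧ u.1.2 + u.2.2 ∈ I}) := by
    apply (hc.prod hc).inter_right
    exact (isClosed_eq (by fun_prop) continuous_const).inter (hI.preimage (by fun_prop))
  have himg : SS K y I = (fun u : F × F => u.1.1 - y) ''
      ((K ×ˢ K) ∩ {u : F × F | u.1.1 + u.2.1 = (2 : ℝ) • y ∧ u.1.2 + u.2.2 ∈ I}) := by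
    ext v
    constructor
    · rintro ⟨a, b, ha, hb, hab⟩
      refine ⟨((y + v, a), (y - v, b)), ⟨⟨ha, hb⟩, ?_, hab⟩, by simp⟩
      simp only [two_smul]
      abel
    · rintro ⟨⟨⟨z, a⟩, ⟨z', b⟩⟩, ⟨⟨ha, hb⟩, hsum, hab⟩, rfl⟩
      simp only at ha hb hsum hab ⊢
      refine ⟨a, b, ?_, ?_, hab⟩
      · simpa using ha
      · have : y - (z - y) = z' := by
          have h2 : z' = (2 : ℝ) • y - z := by rw [← hsum]; abel
          rw [h2, two_smul]
          abel
        rw [this]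
        exact hb
  rw [himg]
  exact hZ.image (by fun_prop)

theorem convex_SS {K : Set F} (hconv : Convex ℝ K) (y : ℝ × ℝ) {I : Set ℝ} (hI : Convex ℝ I) :
    Convex ℝ (SS K y I) := by
  rintro v ⟨a, b, ha, hb, hab⟩ v' ⟨a', b', ha', hb', hab'⟩ α β hα hβ hαβ
  refine ⟨α * a + β * a', α * b + β * b', ?_, ?_, ?_⟩
  · have := hconv ha ha' hα hβ hαβ
    have he : α • ((y + v, a) : F) + β • (y + v', a') = (y + (α • v + β • v'), α * a + β * a') := by
      have hβ' : β = 1 - α := by linarith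
      subst hβ'
      ext <;> simp <;> ring
    rwa [he] at this
  · have := hconv hb hb' hα hβ hαβ
    have he : α • ((y - v, b) : F) + β • (y - v', b') = (y - (α • v + β • v'), α * b + β * b') := by
      have hβ' : β = 1 - α := by linarith
      subst hβ'
      ext <;> simp <;> ring
    rwa [he] at this
  · have := hI hab hab' hα hβ hαβ
    have he : α • (a + b) + β • (a' + b') = α * a + β * a' + (α * b + β * b') := by
      simp only [smul_eq_mul]; ring
    rwa [he] at this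

theorem neg_mem_SS {K : Set F} {y : ℝ × ℝ} {I : Set ℝ} {v : ℝ × ℝ} (hv : v ∈ SS K y I) :
    -v ∈ SS K y I := by
  obtain ⟨a, b, ha, hb, hab⟩ := hv
  refine ⟨b, a, ?_, ?_, ?_⟩
  · rw [← sub_eq_add_neg]; exact hb
  · rw [sub_neg_eq_add]; exact ha
  · rwa [add_comm]

theorem add_mem_fst_of_mem_SS {K : Set F} {y : ℝ × ℝ} {I : Set ℝ} {v : ℝ × ℝ} (hv : v ∈ SS K y I) :
    y + v ∈ Prod.fst '' K := by
  obtain ⟨a, b, ha, hb, hab⟩ := hv
  exact ⟨_, ha, rfl⟩

/-- **Packing.** If `w = (p - p') / (2 m)` is not in the symmetric convex set `A`, then `m + 1`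
disjoint translates of `A / 2` fit into `P`. -/
theorem packing {A P : Set (ℝ × ℝ)} (hA : IsCompact A) (hconvA : Convex ℝ A) (h0 : (0 : ℝ × ℝ) ∈ A)
    (hsymm : ∀ v ∈ A, -v ∈ A) (hP : Convex ℝ P) {y p p' : ℝ × ℝ} (hy : ∀ v ∈ A, y + v ∈ P)
    (hp : p ∈ P) (hp' : p' ∈ P) {m : ℕ} (hm : 0 < m)
    (hw : ((1 : ℝ) / (2 * m)) • (p - p') ∉ A) :
    ((m : ℝ≥0∞) + 1) * volume A ≤ 4 * volume P := by
  have hm' : (0 : ℝ) < m := by exact_mod_cast hm
  set w : ℝ × ℝ := ((1 : ℝ) / (2 * m)) • (p - p') with hwdef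
  let c : ℕ → ℝ × ℝ := fun j => (1 / 2 : ℝ) • y + (1 / 2 : ℝ) • (p' + ((j : ℝ) / m) • (p - p'))
  let Q : ℕ → Set (ℝ × ℝ) := fun j => (fun x => c j + x) '' ((1 / 2 : ℝ) • A)
  have hQc : ∀ j, IsCompact (Q j) := fun j => (hA.smul (1 / 2 : ℝ)).image (by fun_prop)
  have hcdiff : ∀ i j : ℕ, i < j → c j - c i = ((j : ℝ) - i) • w := by
    intro i j _
    simp only [c, hwdef]
    rw [smul_smul]
    have : ((j : ℝ) - i) * (1 / (2 * (m : ℝ))) = (1 / 2) * ((j : ℝ) / m - (i : ℝ) / m) := by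
      field_simp
    rw [this, mul_smul, sub_smul]
    module
  have hQsub : ∀ j ∈ Finset.range (m + 1), Q j ⊆ P := by
    rintro j hj _ ⟨_, ⟨v, hv, rfl⟩, rfl⟩
    have hj' : (j : ℝ) ≤ m := by
      have := Finset.mem_range.mp hj
      exact_mod_cast Nat.lt_succ_iff.mp this
    have hseg : p' + ((j : ℝ) / m) • (p - p') ∈ P := by
      have hd0 : 0 ≤ (j : ℝ) / m := by positivity
      have hd1 : (j : ℝ) / m ≤ 1 := (div_le_one hm').mpr hj'
      have := hP hp' hp (by linarith : 0 ≤ 1 - (j : ℝ) / m) hd0 (by ring)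
      have he : (1 - (j : ℝ) / m) • p' + ((j : ℝ) / m) • p = p' + ((j : ℝ) / m) • (p - p') := by
        module
      rwa [he] at this
    have hmid := hP (hy v hv) hseg (by norm_num : (0 : ℝ) ≤ 1 / 2) (by norm_num : (0 : ℝ) ≤ 1 / 2)
      (by norm_num)
    have he : (1 / 2 : ℝ) • (y + v) + (1 / 2 : ℝ) • (p' + ((j : ℝ) / m) • (p - p')) =
        c j + (1 / 2 : ℝ) • v := by
      simp only [c]
      module
    rw [he] at hmid
    exact hmid
  have hdisj : ∀ i j : ℕ, i < j → Disjoint (Q i) (Q j) := by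
    intro i j hij
    rw [Set.disjoint_left]
    rintro _ ⟨_, ⟨v, hv, rfl⟩, rfl⟩ ⟨_, ⟨v', hv', rfl⟩, he⟩
    apply hw
    have he' : c j + (1 / 2 : ℝ) • v' = c i + (1 / 2 : ℝ) • v := he
    have hcd := hcdiff i j hij
    have hk : (0 : ℝ) < (j : ℝ) - i := by
      have : (i : ℝ) < j := by exact_mod_cast hij
      linarith
    have hk1 : (1 : ℝ) ≤ (j : ℝ) - i := by
      have : (i : ℝ) + 1 ≤ j := by exact_mod_cast hij
      linarith
    have hmem : ((j : ℝ) - i) • w ∈ A := by
      have := hconvA hv (hsymm v' hv') (by norm_num : (0 : ℝ) ≤ 1 / 2)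
        (by norm_num : (0 : ℝ) ≤ 1 / 2) (by norm_num)
      have he2 : (1 / 2 : ℝ) • v + (1 / 2 : ℝ) • (-v') = ((j : ℝ) - i) • w := by
        rw [← hcd]
        have he3 : c j - c i = (1 / 2 : ℝ) • v - (1 / 2 : ℝ) • v' := by
          have : c j = c i + (1 / 2 : ℝ) • v - (1 / 2 : ℝ) • v' := by
            rw [← he']; abel
          rw [this]; abel
        rw [he3]
        simp only [smul_neg]
        abel
      rwa [he2] at this
    have hfinal := hconvA hmem h0 (inv_nonneg.mpr hk.le) (by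
      have := inv_le_one_of_one_le₀ hk1
      linarith : 0 ≤ 1 - ((j : ℝ) - i)⁻¹) (by ring)
    have he4 : ((j : ℝ) - i)⁻¹ • (((j : ℝ) - i) • w) + (1 - ((j : ℝ) - i)⁻¹) • (0 : ℝ × ℝ) = w := by
      rw [smul_smul, inv_mul_cancel₀ hk.ne', one_smul, smul_zero, add_zero]
    rwa [he4] at hfinal
  have hpair : (↑(Finset.range (m + 1)) : Set ℕ).PairwiseDisjoint Q := by
    intro i _ j _ hij
    rcases lt_or_gt_of_ne hij with h | h
    · exact hdisj i j h
    · exact (hdisj j i h).symm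
  have hvolQ : ∀ j, volume (Q j) = (1 / 4 : ℝ≥0∞) * volume A := by
    intro j
    simp only [Q]
    rw [Set.image_add_left, measure_preimage_add, Measure.addHaar_smul_of_nonneg _ (by norm_num)]
    have hfr : finrank ℝ (ℝ × ℝ) = 2 := by simp
    rw [hfr]
    congr 1
    rw [show ((1 / 2 : ℝ) ^ 2) = 1 / 4 by norm_num, ENNReal.ofReal_div_of_pos (by norm_num)]
    simp
  have hsum : ∑ j ∈ Finset.range (m + 1), volume (Q j) ≤ volume P := by
    rw [← measure_biUnion_finset hpair (fun j _ => (hQc j).measurableSet)]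
    apply measure_mono
    intro x hx
    obtain ⟨j, hj, hxj⟩ := Set.mem_iUnion₂.mp hx
    exact hQsub j hj hxj
  simp only [hvolQ, Finset.sum_const, Finset.card_range, nsmul_eq_mul] at hsum
  have h4 : ((m + 1 : ℕ) : ℝ≥0∞) * ((1 / 4 : ℝ≥0∞) * volume A) * 4 =
      ((m : ℝ≥0∞) + 1) * volume A := by
    have : (1 / 4 : ℝ≥0∞) * 4 = 1 := by
      rw [one_div]
      exact ENNReal.inv_mul_cancel (by norm_num) (by norm_num)
    calc ((m + 1 : ℕ) : ℝ≥0∞) * ((1 / 4 : ℝ≥0∞) * volume A) * 4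
        = ((m + 1 : ℕ) : ℝ≥0∞) * volume A * ((1 / 4 : ℝ≥0∞) * 4) := by ring
      _ = ((m : ℝ≥0∞) + 1) * volume A := by rw [this, mul_one]; push_cast; rfl
  rw [← h4, mul_comm (4 : ℝ≥0∞)]
  gcongr

/-- An upper bound for the volume of a lens in terms of the directions it occupies. -/
theorem volume_lens_le {K : Set F} (hc : IsCompact K) (y : ℝ × ℝ) {c L : ℝ} (hL : 0 ≤ L) {I : Set ℝ}
    (hI : IsClosed I) (hcI : c ∈ I)
    (hfib : ∀ z a a', (z, a) ∈ lens K (y, c / 2) → (z, a') ∈ lens K (y, c / 2) → |a - a'| ≤ L) :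
    volume (lens K (y, c / 2)) ≤ ENNReal.ofReal L * volume (SS K y I) := by
  have hQm : MeasurableSet (lens K (y, c / 2)) := by
    have : IsClosed (lens K (y, c / 2)) :=
      hc.isClosed.inter (hc.isClosed.preimage (by fun_prop))
    exact this.measurableSet
  set S : Set (ℝ × ℝ) := (fun v => y + v) '' SS K y I with hS
  have hSc : IsCompact S := (isCompact_SS hc y hI).image (by fun_prop)
  have hvS : volume S = volume (SS K y I) := by
    rw [hS, Set.image_add_left, measure_preimage_add]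
  rw [← hvS]
  rw [Measure.volume_eq_prod, Measure.prod_apply hQm]
  have key : ∀ z : ℝ × ℝ, volume (Prod.mk z ⁻¹' lens K (y, c / 2)) ≤
      S.indicator (fun _ => ENNReal.ofReal L) z := by
    intro z
    by_cases hz : z ∈ S
    · rw [indicator_of_mem hz]
      refine (Real.volume_le_diam _).trans ?_
      refine Metric.ediam_le fun a ha a' ha' => ?_
      rw [edist_dist, Real.dist_eq]
      exact ENNReal.ofReal_le_ofReal (hfib z a a' ha ha')
    · rw [indicator_of_notMem hz]
      have : Prod.mk z ⁻¹' lens K (y, c / 2) = ∅ := by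
        ext a
        simp only [mem_preimage, mem_empty_iff_false, iff_false]
        rintro ⟨h1, h2⟩
        apply hz
        refine ⟨z - y, ⟨a, c - a, ?_, ?_, ?_⟩, by simp⟩
        · simpa using h1
        · have he : (2 : ℝ) • ((y, c / 2) : F) - (z, a) = (y - (z - y), c - a) := by
            ext <;> simp [two_mul] <;> ring
          rw [he] at h2
          exact h2
        · simpa using hcI
      simp [this]
  calc ∫⁻ z, volume (Prod.mk z ⁻¹' lens K (y, c / 2))
      ≤ ∫⁻ z, S.indicator (fun _ => ENNReal.ofReal L) z := lintegral_mono key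
    _ = ENNReal.ofReal L * volume S := by
        rw [lintegral_indicator hSc.measurableSet, setLIntegral_const]

end Vale.Agent.P243G
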