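import Vale.Agent.P243G.Wedge

/-!
The fan estimate for a planar convex body, from a triangle of maximal area.
-/

open MeasureTheory Set Topology
open scoped ENNReal

namespace Vale.Agent.P243G

theorem exists_small_step {P : Set (ℝ × ℝ)} {y : ℝ × ℝ} (hy : y ∈ interior P) (e : ℝ × ℝ) :
    ∃ μ : ℝ, 0 < μ ∧ μ ≤ 1 ∧ (y.1 + μ * (e.1 - y.1), y.2 + μ * (e.2 - y.2)) ∈ P := by
  have hc : Continuous fun μ : ℝ => ((y.1 + μ * (e.1 - y.1), y.2 + μ * (e.2 - y.2)) : ℝ × ℝ) := by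
    fun_prop
  have h0 : ((y.1 + (0 : ℝ) * (e.1 - y.1), y.2 + (0 : ℝ) * (e.2 - y.2)) : ℝ × ℝ) = y := by
    simp
  have hmem : (fun μ : ℝ => ((y.1 + μ * (e.1 - y.1), y.2 + μ * (e.2 - y.2)) : ℝ × ℝ)) ⁻¹' P ∈ 𝓝 (0 : ℝ) := by
    apply hc.continuousAt.preimage_mem_nhds
    simp only [h0]
    exact mem_interior_iff_mem_nhds.mp hy
  obtain ⟨ε, hε, hball⟩ := Metric.mem_nhds_iff.mp hmem
  refine ⟨min (ε / 2) 1, by positivity, min_le_right _ _, ?_⟩
  apply hball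
  rw [Metric.mem_ball, Real.dist_eq, sub_zero, abs_of_pos (by positivity)]
  exact lt_of_le_of_lt (min_le_left _ _) (half_lt_self hε)

theorem exists_max_triangle {P : Set (ℝ × ℝ)} (hPc : IsCompact P) (hint : (interior P).Nonempty) :
    ∃ t1 ∈ P, ∃ t2 ∈ P, ∃ t3 ∈ P, 0 < D t1 t2 t3 ∧
      ∀ p ∈ P, ∀ q ∈ P, ∀ r ∈ P, D p q r ≤ D t1 t2 t3 := by
  obtain ⟨y, hy⟩ := hint
  have hyP : y ∈ P := interior_subset hy
  have hc : IsCompact (P ×ˢ (P ×ˢ P)) := hPc.prod (hPc.prod hPc)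
  have hne : (P ×ˢ (P ×ˢ P)).Nonempty := ⟨(y, y, y), hyP, hyP, hyP⟩
  have hcont : ContinuousOn (fun x : (ℝ × ℝ) × (ℝ × ℝ) × (ℝ × ℝ) => D x.1 x.2.1 x.2.2)
      (P ×ˢ (P ×ˢ P)) := by
    apply Continuous.continuousOn
    unfold D
    fun_prop
  obtain ⟨⟨t1, t2, t3⟩, ⟨h1, h2, h3⟩, hmax⟩ := hc.exists_isMaxOn hne hcont
  refine ⟨t1, h1, t2, h2, t3, h3, ?_, fun p hp q hq r hr => isMaxOn_iff.mp hmax (p, q, r) ⟨hp, hq, hr⟩⟩
  obtain ⟨μ1, hμ1, -, hm1⟩ := exists_small_step hy ((y.1 + 1, y.2) : ℝ × ℝ)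
  obtain ⟨μ2, hμ2, -, hm2⟩ := exists_small_step hy ((y.1, y.2 + 1) : ℝ × ℝ)
  have h4 := isMaxOn_iff.mp hmax (y, _, _) ⟨hyP, hm1, hm2⟩
  simp only at h4
  have h6 : D y (y.1 + μ1 * (((y.1 + 1, y.2) : ℝ × ℝ).1 - y.1),
      y.2 + μ1 * (((y.1 + 1, y.2) : ℝ × ℝ).2 - y.2))
      (y.1 + μ2 * (((y.1, y.2 + 1) : ℝ × ℝ).1 - y.1),
      y.2 + μ2 * (((y.1, y.2 + 1) : ℝ × ℝ).2 - y.2)) = μ1 * μ2 := by
    simp only [D]
    ring
  rw [h6] at h4
  have := mul_pos hμ1 hμ2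
  linarith

/-- Strictness at interior points. -/
theorem strict_of_interior {P : Set (ℝ × ℝ)} {y a b : ℝ × ℝ} {M : ℝ} (hy : y ∈ interior P)
    (hab : a ≠ b) (hM : ∀ p ∈ P, D a p b ≤ M) : D a y b < M := by
  obtain ⟨μ, hμ, -, hm⟩ := exists_small_step hy ((y.1 + (b.2 - a.2), y.2 - (b.1 - a.1)) : ℝ × ℝ)
  have h1 := hM _ hm
  have h2 : D a (y.1 + μ * (((y.1 + (b.2 - a.2), y.2 - (b.1 - a.1)) : ℝ × ℝ).1 - y.1),
      y.2 + μ * (((y.1 + (b.2 - a.2), y.2 - (b.1 - a.1)) : ℝ × ℝ).2 - y.2)) b =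
      D a y b + μ * ((b.1 - a.1) ^ 2 + (b.2 - a.2) ^ 2) := by
    simp only [D]
    ring
  rw [h2] at h1
  have hpos : 0 < (b.1 - a.1) ^ 2 + (b.2 - a.2) ^ 2 := by
    by_contra hne
    push Not at hne
    have h3 : (b.1 - a.1) ^ 2 = 0 := by nlinarith [sq_nonneg (b.1 - a.1), sq_nonneg (b.2 - a.2)]
    have h4 : (b.2 - a.2) ^ 2 = 0 := by nlinarith [sq_nonneg (b.1 - a.1), sq_nonneg (b.2 - a.2)]
    apply hab
    have h5 : b.1 - a.1 = 0 := by simpa using h3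
    have h6 : b.2 - a.2 = 0 := by simpa using h4
    ext <;> linarith
  have := mul_pos hμ hpos
  linarith

theorem ne_of_D_pos_left {y a b : ℝ × ℝ} (h : 0 < D y a b) : y ≠ a := by
  rintro rfl
  rw [D_self_left] at h
  exact lt_irrefl _ h

theorem tri_subset {P : Set (ℝ × ℝ)} (hconv : Convex ℝ P) {t1 t2 t3 : ℝ × ℝ} (h1 : t1 ∈ P)
    (h2 : t2 ∈ P) (h3 : t3 ∈ P) (h : 0 < D t1 t2 t3) : tri t1 t2 t3 ⊆ P := by
  rintro p ⟨hp1, hp2, hp3⟩
  set d := D t1 t2 t3 with hd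
  have hsum : D t2 t3 p + D t3 t1 p + D t1 t2 p = d := by rw [hd]; unfold D; ring
  have hw1 : 0 ≤ D t2 t3 p / d := div_nonneg hp2 h.le
  have hw2 : 0 ≤ D t3 t1 p / d := div_nonneg hp3 h.le
  have hw3 : 0 ≤ D t1 t2 p / d := div_nonneg hp1 h.le
  have hsum' : D t2 t3 p / d + D t3 t1 p / d + D t1 t2 p / d = 1 := by
    rw [← add_div, ← add_div, hsum, div_self h.ne']
  have hmem : (D t2 t3 p / d) • t1 + (D t3 t1 p / d) • t2 + (D t1 t2 p / d) • t3 ∈ P := by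
    have hc := (convex_iff_sum_mem.mp hconv)
    have := hconv.sum_mem (t := Finset.univ) (w := ![D t2 t3 p / d, D t3 t1 p / d, D t1 t2 p / d])
      (z := ![t1, t2, t3]) (by
        intro i _
        fin_cases i <;> simp [hw1, hw2, hw3]) (by
        simp [Fin.sum_univ_three, hsum']) (by
        intro i _
        fin_cases i <;> simp [h1, h2, h3])
    simpa [Fin.sum_univ_three] using this
  have heq : (D t2 t3 p / d) • t1 + (D t3 t1 p / d) • t2 + (D t1 t2 p / d) • t3 = p := by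
    have hd0 : d ≠ 0 := h.ne'
    ext
    · simp only [Prod.fst_add, Prod.smul_fst, smul_eq_mul]
      field_simp
      rw [hd]
      simp only [D]
      ring
    · simp only [Prod.snd_add, Prod.smul_snd, smul_eq_mul]
      field_simp
      rw [hd]
      simp only [D]
      ring
  rwa [heq] at hmem

/-- The corner of the anticomplementary triangle. -/
def eP (a b c : ℝ × ℝ) : ℝ × ℝ := (a.1 + b.1 - c.1, a.2 + b.2 - c.2)

/-- The estimate on one of three sectors. -/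
theorem sector_bound {P : Set (ℝ × ℝ)} (hPc : IsCompact P) {y : ℝ × ℝ} (hy : y ∈ interior P)
    (G : Set (ℝ × ℝ) → ℝ) (hG0 : ∀ S, 0 ≤ G S)
    (hGadd : ∀ S S1 S2, MeasurableSet S1 → MeasurableSet S2 → Disjoint S1 S2 → S1 ⊆ S → S2 ⊆ S →
      G S1 + G S2 ≤ G S)
    (c0 L : ℝ) (hc0 : 0 ≤ c0) (hL : 0 ≤ L)
    (hleaf : ∀ a ∈ P, ∀ b ∈ P, 0 < D y a b → c0 * D y a b - L ≤ G (Wo y a b)) (k : ℕ)
    {t1 t2 t3 : ℝ × ℝ} (ht2 : t2 ∈ P)
    (hM : ∀ p ∈ P, D t1 p t3 ≤ D t1 t2 t3) (hs : D t1 y t3 < D t1 t2 t3) :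
    2 * c0 * ((volume (P ∩ Wo y (eP t1 t2 t3) (eP t2 t3 t1))).toReal -
      (1 / 4) ^ k * (D y (eP t1 t2 t3) (eP t2 t3 t1) / 2)) - 2 * (2 ^ k * L) ≤
      G (Wo y (eP t1 t2 t3) (eP t2 t3 t1)) := by
  set e3 := eP t1 t2 t3 with he3
  set e1 := eP t2 t3 t1 with he1
  set d := D y e3 e1 with hd
  have hfin : ∀ X : Set (ℝ × ℝ), volume (P ∩ X) ≠ ⊤ := fun X =>
    ((measure_mono inter_subset_left).trans_lt hPc.measure_lt_top).ne
  have hdval : d = 2 * (D t1 t2 t3 - D t1 y t3) := by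
    rw [hd, he3, he1]; simp only [D, eP]; ring
  have hdpos : 0 < d := by rw [hdval]; linarith
  have hd1 : D y e3 t2 = d / 2 := by
    rw [hd, he3, he1]; simp only [D, eP]; ring
  have hd2 : D y t2 e1 = d / 2 := by
    rw [hd, he3, he1]; simp only [D, eP]; ring
  obtain ⟨μ3, hμ3, hμ3', hr3⟩ := exists_small_step hy e3
  obtain ⟨μ1, hμ1, hμ1', hr1⟩ := exists_small_step hy e1
  set r3 : ℝ × ℝ := (y.1 + μ3 * (e3.1 - y.1), y.2 + μ3 * (e3.2 - y.2)) with hr3def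
  set r1 : ℝ × ℝ := (y.1 + μ1 * (e1.1 - y.1), y.2 + μ1 * (e1.2 - y.2)) with hr1def
  have hr3l : ∀ p, D y r3 p = μ3 * D y e3 p := by
    intro p; rw [hr3def]; simp only [D]; ring
  have hr3r : ∀ p, D y p r3 = μ3 * D y p e3 := by
    intro p; rw [hr3def]; simp only [D]; ring
  have hr1l : ∀ p, D y r1 p = μ1 * D y e1 p := by
    intro p; rw [hr1def]; simp only [D]; ring
  have hr1r : ∀ p, D y p r1 = μ1 * D y p e1 := by
    intro p; rw [hr1def]; simp only [D]; ring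
  -- the two wedges, rewritten
  have hW1 : Wo y r3 t2 = Wo y e3 t2 := by
    ext p
    simp only [Wo, mem_ofPred_eq, hr3l]
    constructor
    · rintro ⟨h1, h2⟩
      exact ⟨(mul_pos_iff_of_pos_left hμ3).mp h1, h2⟩
    · rintro ⟨h1, h2⟩
      exact ⟨mul_pos hμ3 h1, h2⟩
  have hW2 : Wo y t2 r1 = Wo y t2 e1 := by
    ext p
    simp only [Wo, mem_ofPred_eq, hr1r]
    constructor
    · rintro ⟨h1, h2⟩
      exact ⟨h1, (mul_pos_iff_of_pos_left hμ1).mp h2⟩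
    · rintro ⟨h1, h2⟩
      exact ⟨h1, mul_pos hμ1 h2⟩
  -- recursion on the first wedge
  have hEa : D r3 e3 t2 = (1 - μ3) * (d / 2) := by
    rw [← hd1, hr3def]; simp only [D]; ring
  have hEb : D t2 e1 r1 = (1 - μ1) * (d / 2) := by
    rw [← hd2, hr1def]; simp only [D]; ring
  have hEa0 : 0 ≤ D r3 e3 t2 := by
    rw [hEa]; exact mul_nonneg (by linarith) (by positivity)
  have hEb0 : 0 ≤ D t2 e1 r1 := by
    rw [hEb]; exact mul_nonneg (by linarith) (by positivity)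
  have hside1 : ∀ p, D e3 t2 p = D t1 t2 t3 - D t1 p t3 := by
    intro p; rw [he3]; simp only [D, eP]; ring
  have hside2 : ∀ p, D t2 e1 p = D t1 t2 t3 - D t1 p t3 := by
    intro p; rw [he1]; simp only [D, eP]; ring
  have hHa : HB P y r3 t2 e3 := by
    intro p hp hpW _
    constructor
    · have h1 : D r3 e3 p = (1 - μ3) * D y e3 p := by
        rw [hr3def]; simp only [D]; ring
      have h2 : 0 ≤ D y e3 p := by
        have := hpW.1
        rw [hr3l] at this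
        by_contra hneg
        push Not at hneg
        have := mul_neg_of_pos_of_neg hμ3 hneg
        linarith
      rw [h1]
      exact mul_nonneg (by linarith) h2
    · rw [hside1]; linarith [hM p hp]
  have hHb : HB P y t2 r1 e1 := by
    intro p hp hpW _
    constructor
    · rw [hside2]; linarith [hM p hp]
    · have h1 : D e1 r1 p = (1 - μ1) * D y p e1 := by
        rw [hr1def]; simp only [D]; ring
      have h2 : 0 ≤ D y p e1 := by
        have := hpW.2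
        rw [hr1r] at this
        by_contra hneg
        push Not at hneg
        have := mul_neg_of_pos_of_neg hμ1 hneg
        linarith
      rw [h1]
      exact mul_nonneg (by linarith) h2
  have hpos1 : 0 < D y r3 t2 := by
    rw [hr3l, hd1]; positivity
  have hpos2 : 0 < D y t2 r1 := by
    rw [hr1r, hd2]; positivity
  have hI1 := rec_bound hPc y G hG0 hGadd c0 L hc0 hL hleaf k r3 hr3 t2 ht2 e3 hpos1 hEa0 hHa
  have hI2 := rec_bound hPc y G hG0 hGadd c0 L hc0 hL hleaf k t2 ht2 r1 hr1 e1 hpos2 hEb0 hHb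
  rw [hW1] at hI1
  rw [hW2] at hI2
  have hsum : D r3 e3 t2 + D t2 e1 r1 ≤ d := by
    rw [hEa, hEb]
    nlinarith
  have hd1nn : 0 ≤ D y e3 t2 := by rw [hd1]; positivity
  have hd2nn : 0 ≤ D y t2 e1 := by rw [hd2]; positivity
  have hadd := hGadd (Wo y e3 e1) (Wo y e3 t2) (Wo y t2 e1) (isOpen_Wo _ _ _).measurableSet
    (isOpen_Wo _ _ _).measurableSet (Wo_disjoint y e3 e1 t2) (Wo_sub_left hd1nn hd2nn hdpos)
    (Wo_sub_right hd1nn hd2nn hdpos)
  have hyc : y ≠ t2 := ne_of_D_pos_left (by rw [hd2]; positivity : 0 < D y t2 e1)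
  have harea : (volume (P ∩ Wo y e3 e1)).toReal ≤
      (volume (P ∩ Wo y e3 t2)).toReal + (volume (P ∩ Wo y t2 e1)).toReal := by
    rw [← ENNReal.toReal_add (hfin _) (hfin _)]
    apply ENNReal.toReal_mono (ENNReal.add_ne_top.mpr ⟨hfin _, hfin _⟩)
    have hsub : P ∩ Wo y e3 e1 ⊆ (P ∩ Wo y e3 t2) ∪ (P ∩ Wo y t2 e1) ∪ {p | D y t2 p = 0} := by
      rintro p ⟨hp, hpW⟩
      rcases Wo_cover y e3 e1 t2 hpW with (h | h) | h
      · exact Or.inl (Or.inl ⟨hp, h⟩)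
      · exact Or.inl (Or.inr ⟨hp, h⟩)
      · exact Or.inr h
    calc volume (P ∩ Wo y e3 e1)
        ≤ volume ((P ∩ Wo y e3 t2) ∪ (P ∩ Wo y t2 e1) ∪ {p | D y t2 p = 0}) := measure_mono hsub
      _ ≤ volume ((P ∩ Wo y e3 t2) ∪ (P ∩ Wo y t2 e1)) + volume {p | D y t2 p = 0} :=
          measure_union_le _ _
      _ = volume ((P ∩ Wo y e3 t2) ∪ (P ∩ Wo y t2 e1)) := by
          rw [volume_line hyc, add_zero]
      _ ≤ _ := measure_union_le _ _
  have hX : (0 : ℝ) ≤ (1 / 4) ^ k := by positivity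
  have hmain : (volume (P ∩ Wo y e3 e1)).toReal - (1 / 4) ^ k * (d / 2) ≤
      ((volume (P ∩ Wo y e3 t2)).toReal - (1 / 4) ^ k * (D r3 e3 t2 / 2)) +
      ((volume (P ∩ Wo y t2 e1)).toReal - (1 / 4) ^ k * (D t2 e1 r1 / 2)) := by
    have h1 : (1 / 4 : ℝ) ^ k * (D r3 e3 t2 + D t2 e1 r1) ≤ (1 / 4) ^ k * d :=
      mul_le_mul_of_nonneg_left hsum hX
    nlinarith
  have hmain2 := mul_le_mul_of_nonneg_left hmain (by positivity : 0 ≤ 2 * c0)
  nlinarith

/-- The fan estimate on the whole plane. -/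
theorem plane_bound {P : Set (ℝ × ℝ)} (hPc : IsCompact P) (hconv : Convex ℝ P) {y : ℝ × ℝ}
    (hy : y ∈ interior P)
    (G : Set (ℝ × ℝ) → ℝ) (hG0 : ∀ S, 0 ≤ G S)
    (hGadd : ∀ S S1 S2, MeasurableSet S1 → MeasurableSet S2 → Disjoint S1 S2 → S1 ⊆ S → S2 ⊆ S →
      G S1 + G S2 ≤ G S)
    (c0 L : ℝ) (hc0 : 0 ≤ c0) (hL : 0 ≤ L)
    (hleaf : ∀ a ∈ P, ∀ b ∈ P, 0 < D y a b → c0 * D y a b - L ≤ G (Wo y a b)) (k : ℕ) :
    2 * c0 * ((volume P).toReal * (1 - 4 * (1 / 4) ^ k)) - 6 * (2 ^ k * L) ≤ G univ := by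
  obtain ⟨t1, ht1, t2, ht2, t3, ht3, hpos, hmax⟩ := exists_max_triangle hPc ⟨y, hy⟩
  have hPfin : volume P ≠ ⊤ := hPc.measure_lt_top.ne
  have hfin : ∀ X : Set (ℝ × ℝ), volume (P ∩ X) ≠ ⊤ := fun X =>
    ((measure_mono inter_subset_left).trans_lt hPc.measure_lt_top).ne
  have hcyc1 : D t2 t3 t1 = D t1 t2 t3 := (D_cycle _ _ _).symm
  have hcyc2 : D t3 t1 t2 = D t1 t2 t3 := by rw [← D_cycle, ← D_cycle]
  have h13 : t1 ≠ t3 := by
    rintro rfl
    have : D t1 t2 t1 = 0 := by unfold D; ring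
    linarith
  have h21 : t2 ≠ t1 := by
    rintro rfl
    have : D t2 t2 t3 = 0 := by unfold D; ring
    linarith
  have h32 : t3 ≠ t2 := by
    rintro rfl
    have : D t1 t3 t3 = 0 := by unfold D; ring
    linarith
  have hs1 := strict_of_interior hy h13 (fun p hp => hmax t1 ht1 p hp t3 ht3)
  have hs2 := strict_of_interior hy h21 (fun p hp => hmax t2 ht2 p hp t1 ht1)
  have hs3 := strict_of_interior hy h32 (fun p hp => hmax t3 ht3 p hp t2 ht2)
  have hS1 := sector_bound hPc hy G hG0 hGadd c0 L hc0 hL hleaf k ht2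
    (fun p hp => hmax t1 ht1 p hp t3 ht3) hs1
  have hS2 := sector_bound hPc hy G hG0 hGadd c0 L hc0 hL hleaf k (t1 := t2) (t2 := t3) (t3 := t1) ht3
    (fun p hp => by rw [hcyc1]; exact hmax t2 ht2 p hp t1 ht1) (by rw [hcyc1]; exact hs2)
  have hS3 := sector_bound hPc hy G hG0 hGadd c0 L hc0 hL hleaf k (t1 := t3) (t2 := t1) (t3 := t2) ht1
    (fun p hp => by rw [hcyc2]; exact hmax t3 ht3 p hp t2 ht2) (by rw [hcyc2]; exact hs3)
  set E3 := eP t1 t2 t3 with hE3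
  set E1 := eP t2 t3 t1 with hE1
  set E2 := eP t3 t1 t2 with hE2
  have hd1 : D y E3 E1 = 2 * (D t1 t2 t3 - D t1 y t3) := by
    rw [hE3, hE1]; simp only [D, eP]; ring
  have hd2 : D y E1 E2 = 2 * (D t1 t2 t3 - D t2 y t1) := by
    rw [hE1, hE2]; simp only [D, eP]; ring
  have hd3 : D y E2 E3 = 2 * (D t1 t2 t3 - D t3 y t2) := by
    rw [hE2, hE3]; simp only [D, eP]; ring
  have hd1pos : 0 < D y E3 E1 := by rw [hd1]; linarith
  have hd2pos : 0 < D y E1 E2 := by rw [hd2]; linarith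
  have hd3pos : 0 < D y E2 E3 := by rw [hd3]; linarith
  have hdsum : D y E3 E1 + D y E1 E2 + D y E2 E3 = 4 * D t1 t2 t3 := by
    rw [hE1, hE2, hE3]; simp only [D, eP]; ring
  have hye1 : y ≠ E1 := ne_of_D_pos_left hd2pos
  have hye2 : y ≠ E2 := ne_of_D_pos_left hd3pos
  have hye3 : y ≠ E3 := ne_of_D_pos_left hd1pos
  -- the three sectors cover
  have hdep : ∀ p, D y E2 E3 * D y E1 p + D y E3 E1 * D y E2 p + D y E1 E2 * D y E3 p = 0 := by
    intro p; unfold D; ring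
  have hcover : P ⊆ (P ∩ Wo y E3 E1) ∪ (P ∩ Wo y E1 E2) ∪ (P ∩ Wo y E2 E3) ∪
      ({p | D y E1 p = 0} ∪ {p | D y E2 p = 0} ∪ {p | D y E3 p = 0}) := by
    intro p hp
    by_cases h1 : D y E1 p = 0
    · exact Or.inr (Or.inl (Or.inl h1))
    by_cases h2 : D y E2 p = 0
    · exact Or.inr (Or.inl (Or.inr h2))
    by_cases h3 : D y E3 p = 0
    · exact Or.inr (Or.inr h3)
    have hd := hdep p
    rcases lt_or_gt_of_ne h1 with a1 | a1 <;> rcases lt_or_gt_of_ne h2 with a2 | a2 <;>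
      rcases lt_or_gt_of_ne h3 with a3 | a3
    · exfalso
      have := mul_neg_of_pos_of_neg hd3pos a1
      have := mul_neg_of_pos_of_neg hd1pos a2
      have := mul_neg_of_pos_of_neg hd2pos a3
      linarith
    · exact Or.inl (Or.inl (Or.inl ⟨hp, a3, by rw [D_swap]; linarith⟩))
    · exact Or.inl (Or.inr ⟨hp, a2, by rw [D_swap]; linarith⟩)
    · exact Or.inl (Or.inl (Or.inl ⟨hp, a3, by rw [D_swap]; linarith⟩))
    · exact Or.inl (Or.inl (Or.inr ⟨hp, a1, by rw [D_swap]; linarith⟩))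
    · exact Or.inl (Or.inl (Or.inr ⟨hp, a1, by rw [D_swap]; linarith⟩))
    · exact Or.inl (Or.inr ⟨hp, a2, by rw [D_swap]; linarith⟩)
    · exfalso
      have := mul_pos hd3pos a1
      have := mul_pos hd1pos a2
      have := mul_pos hd2pos a3
      linarith
  have harea : (volume P).toReal ≤ (volume (P ∩ Wo y E3 E1)).toReal +
      (volume (P ∩ Wo y E1 E2)).toReal + (volume (P ∩ Wo y E2 E3)).toReal := by
    rw [← ENNReal.toReal_add (hfin _) (hfin _),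
      ← ENNReal.toReal_add (ENNReal.add_ne_top.mpr ⟨hfin _, hfin _⟩) (hfin _)]
    apply ENNReal.toReal_mono
      (ENNReal.add_ne_top.mpr ⟨ENNReal.add_ne_top.mpr ⟨hfin _, hfin _⟩, hfin _⟩)
    calc volume P ≤ volume ((P ∩ Wo y E3 E1) ∪ (P ∩ Wo y E1 E2) ∪ (P ∩ Wo y E2 E3) ∪
          ({p | D y E1 p = 0} ∪ {p | D y E2 p = 0} ∪ {p | D y E3 p = 0})) := measure_mono hcover
      _ ≤ volume ((P ∩ Wo y E3 E1) ∪ (P ∩ Wo y E1 E2) ∪ (P ∩ Wo y E2 E3)) +
          volume ({p | D y E1 p = 0} ∪ {p | D y E2 p = 0} ∪ {p | D y E3 p = 0}) :=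
          measure_union_le _ _
      _ = volume ((P ∩ Wo y E3 E1) ∪ (P ∩ Wo y E1 E2) ∪ (P ∩ Wo y E2 E3)) := by
          have : volume ({p | D y E1 p = 0} ∪ {p | D y E2 p = 0} ∪ {p | D y E3 p = 0}) = 0 := by
            apply measure_mono_null _ (measure_union_null
              (measure_union_null (volume_line hye1) (volume_line hye2)) (volume_line hye3))
            exact Subset.rfl
          rw [this, add_zero]
      _ ≤ volume ((P ∩ Wo y E3 E1) ∪ (P ∩ Wo y E1 E2)) + volume (P ∩ Wo y E2 E3) :=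
          measure_union_le _ _
      _ ≤ volume (P ∩ Wo y E3 E1) + volume (P ∩ Wo y E1 E2) + volume (P ∩ Wo y E2 E3) := by
          gcongr
          exact measure_union_le _ _
  -- the set function on the union of the sectors
  have hdisj12 : Disjoint (Wo y E3 E1) (Wo y E1 E2) := Wo_disjoint y E3 E2 E1
  have hdisj3 : Disjoint (Wo y E3 E1 ∪ Wo y E1 E2) (Wo y E2 E3) := by
    rw [Set.disjoint_left]
    rintro p (⟨h1, _⟩ | ⟨_, h1⟩) ⟨h2, h3⟩
    · rw [D_swap] at h3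
      linarith
    · rw [D_swap] at h1
      linarith
  have hG1 := hGadd (Wo y E3 E1 ∪ Wo y E1 E2) (Wo y E3 E1) (Wo y E1 E2)
    (isOpen_Wo _ _ _).measurableSet (isOpen_Wo _ _ _).measurableSet hdisj12
    subset_union_left subset_union_right
  have hG2 := hGadd univ (Wo y E3 E1 ∪ Wo y E1 E2) (Wo y E2 E3)
    ((isOpen_Wo _ _ _).union (isOpen_Wo _ _ _)).measurableSet (isOpen_Wo _ _ _).measurableSet hdisj3
    (subset_univ _) (subset_univ _)
  -- the area of the triangle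
  have htri : D t1 t2 t3 / 2 ≤ (volume P).toReal := by
    have h1 : volume (tri t1 t2 t3) ≤ volume P := measure_mono (tri_subset hconv ht1 ht2 ht3 hpos)
    rw [volume_tri hpos] at h1
    have h2 := ENNReal.toReal_mono hPfin h1
    rwa [ENNReal.toReal_ofReal (by positivity)] at h2
  have hX : (0 : ℝ) ≤ (1 / 4) ^ k := by positivity
  have hfinal : (volume P).toReal * (1 - 4 * (1 / 4) ^ k) ≤
      ((volume (P ∩ Wo y E3 E1)).toReal - (1 / 4) ^ k * (D y E3 E1 / 2)) +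
      ((volume (P ∩ Wo y E1 E2)).toReal - (1 / 4) ^ k * (D y E1 E2 / 2)) +
      ((volume (P ∩ Wo y E2 E3)).toReal - (1 / 4) ^ k * (D y E2 E3 / 2)) := by
    have h1 : (1 / 4 : ℝ) ^ k * (D y E3 E1 + D y E1 E2 + D y E2 E3) ≤
        (1 / 4) ^ k * (8 * (volume P).toReal) := by
      apply mul_le_mul_of_nonneg_left _ hX
      rw [hdsum]
      linarith
    nlinarith
  have hfinal2 := mul_le_mul_of_nonneg_left hfinal (by positivity : 0 ≤ 2 * c0)
  nlinarith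

end Vale.Agent.P243G
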