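import Vale.Agent.P243G.ChordLoss

/-!
Bounds on vertical sections of the set of points with large lens, and on its volume.
-/

open MeasureTheory Set Module
open scoped ENNReal Pointwise

namespace Vale.Agent.P243G

open Vale.Agent.P243 (chordSet chordLen chordSet_eq_Icc chordLen_eq chordLen_nonneg chordLen_concave
  mem_fst_image_of_convex volume_le_of_slices)

/-- Real form of the Rogers-Shephard inequality. -/
theorem chord_area_le_real {K : Set F} (hc : IsCompact K) (hconv : Convex ℝ K) {y : ℝ × ℝ}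
    (hy : y ∈ Prod.fst '' K) :
    chordLen K y / 3 * (volume (Prod.fst '' K)).toReal ≤ (volume K).toReal := by
  have h := chord_area_le hc hconv hy
  have hr := ENNReal.toReal_mono hc.measure_lt_top.ne h
  rwa [ENNReal.toReal_mul, ENNReal.toReal_ofReal (by have := chordLen_nonneg K y; positivity)] at hr

/-- **The section bound.** -/
theorem section_bound {K : Set F} (hc : IsCompact K) (hconv : Convex ℝ K) {ε τ : ℝ} {m : ℕ}
    (hm : 0 < m) (hε : 0 < ε) (hε5 : 5 * ε < 1) (hτ : 0 < τ)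
    (h1 : 24 * ε < ((m : ℝ) + 1) * τ) (h2 : 1 ≤ (1 - 5 * ε) * (1 / 3 + (1 / (m : ℝ)) / 6) * (3 - 2 * ε))
    (hVpos : 0 < (volume K).toReal) (hApos : 0 < (volume (Prod.fst '' K)).toReal)
    {y : ℝ × ℝ} (hy : y ∈ Prod.fst '' K) :
    volume {s | (y, s) ∈ good K (ENNReal.ofReal (τ * (volume K).toReal))} ≤
      ENNReal.ofReal ((3 - 2 * ε) * (volume K).toReal / (volume (Prod.fst '' K)).toReal) := by
  set V : ℝ := (volume K).toReal with hV
  set P : Set (ℝ × ℝ) := Prod.fst '' K with hP
  set A : ℝ := (volume P).toReal with hA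
  set C := good K (ENNReal.ofReal (τ * V)) with hC
  have hPfin : volume P ≠ ⊤ := (hc.image continuous_fst).measure_lt_top.ne
  obtain ⟨s0, s1, hs01, hs⟩ := chordSet_eq_Icc hc hconv hy
  have hlen : chordLen K y = s1 - s0 := chordLen_eq hs01 hs
  set ℓ : ℝ := s1 - s0 with hℓ
  have hℓ0 : 0 ≤ ℓ := by rw [hℓ]; linarith
  have hsecK : {s | (y, s) ∈ C} ⊆ Icc s0 s1 := by
    intro s hs'
    have : s ∈ chordSet K y := hs'.1
    rwa [hs] at this
  have h3e : 0 < 3 - 2 * ε := by linarith
  by_cases hcase : ℓ * A ≤ (3 - 2 * ε) * V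
  · refine (measure_mono hsecK).trans ?_
    rw [Real.volume_Icc]
    apply ENNReal.ofReal_le_ofReal
    rw [le_div_iff₀ hApos]
    exact hcase
  push Not at hcase
  have hℓA : 0 < ℓ * A := lt_trans (by positivity) hcase
  have hRS : ∀ z ∈ P, chordLen K z * A ≤ 3 * V := by
    intro z hz
    have := chord_area_le_real hc hconv hz
    rw [← hA, ← hV] at this
    linarith
  have hRSy : ℓ * A ≤ 3 * V := by
    have := hRS y hy
    rwa [hlen] at this
  -- one of the two end pieces of the chord avoids `C`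
  have hends : (∀ t, 0 ≤ t → t ≤ ε * ℓ → (y, s0 + t) ∉ C) ∨ (∀ t, 0 ≤ t → t ≤ ε * ℓ → (y, s1 - t) ∉ C) := by
    by_contra hcon
    push Not at hcon
    obtain ⟨⟨t1, ht1, ht1', hg1⟩, ⟨t2, ht2, ht2', hg2⟩⟩ := hcon
    have hup : ∀ z ∈ P, chordLen K z ≤ (1 + ε) * ℓ := by
      intro z hz
      have h4 := hRS z hz
      have h5 : chordLen K z * A * (3 - 2 * ε) < 3 * (ℓ * A) := by
        calc chordLen K z * A * (3 - 2 * ε) ≤ 3 * V * (3 - 2 * ε) :=
              mul_le_mul_of_nonneg_right h4 h3e.le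
          _ = 3 * ((3 - 2 * ε) * V) := by ring
          _ < 3 * (ℓ * A) := by linarith
      have h6 : chordLen K z * (3 - 2 * ε) < 3 * ℓ := by
        have : (chordLen K z * (3 - 2 * ε)) * A < (3 * ℓ) * A := by nlinarith
        exact lt_of_mul_lt_mul_right this hApos.le
      have h7 : 3 * ℓ ≤ (1 + ε) * ℓ * (3 - 2 * ε) := by
        have : (1 + ε) * (3 - 2 * ε) - 3 = ε * (1 - 2 * ε) := by ring
        have h8 : 0 ≤ ε * (1 - 2 * ε) := mul_nonneg hε.le (by linarith)
        nlinarith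
      have h9 : chordLen K z * (3 - 2 * ε) < (1 + ε) * ℓ * (3 - 2 * ε) := lt_of_lt_of_le h6 h7
      exact (lt_of_mul_lt_mul_right h9 h3e.le).le
    have hpos : 0 < (1 - 4 * ε - ε) * ℓ := by
      have : 0 < ℓ := by
        by_contra hn
        have : ℓ = 0 := le_antisymm (not_lt.mp hn) hℓ0
        rw [this] at hℓA
        simp at hℓA
      exact mul_pos (by linarith) this
    have hpack : ENNReal.ofReal (8 * ε * ℓ) * volume P <
        ((m : ℝ≥0∞) + 1) * ENNReal.ofReal (τ * V) := by
      have he1 : ENNReal.ofReal (8 * ε * ℓ) * volume P = ENNReal.ofReal (8 * ε * ℓ * A) := by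
        rw [ENNReal.ofReal_mul (p := 8 * ε * ℓ) (q := A) (by positivity), hA,
          ENNReal.ofReal_toReal hPfin]
      have he2 : ((m : ℝ≥0∞) + 1) * ENNReal.ofReal (τ * V) = ENNReal.ofReal (((m : ℝ) + 1) * (τ * V)) := by
        rw [ENNReal.ofReal_mul (p := (m : ℝ) + 1) (q := τ * V) (by positivity),
          ENNReal.ofReal_add (by positivity) (by norm_num)]
        simp
      rw [he1, he2]
      apply (ENNReal.ofReal_lt_ofReal_iff (by positivity)).mpr
      have h4 : 8 * ε * ℓ * A ≤ 8 * ε * (3 * V) := by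
        have : 8 * ε * ℓ * A = 8 * ε * (ℓ * A) := by ring
        rw [this]
        exact mul_le_mul_of_nonneg_left hRSy (by positivity)
      have h5 : 24 * ε * V < ((m : ℝ) + 1) * τ * V := mul_lt_mul_of_pos_right h1 hVpos
      nlinarith
    have hloss := chord_loss hc hconv hs01 hs hm hε.le ht1 ht1' ht2 ht2' hg1 hg2 hpack hup hpos
    have hr := ENNReal.toReal_mono hc.measure_lt_top.ne hloss
    have hm' : (0 : ℝ) < m := by exact_mod_cast hm
    rw [ENNReal.toReal_mul, ENNReal.toReal_ofReal (by positivity)] at hr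
    have hX : (1 - 4 * ε - ε) * ℓ * (1 / 3 + (1 / (m : ℝ)) / 6) * A ≤ V := hr
    set X : ℝ := (1 - 5 * ε) * (1 / 3 + (1 / (m : ℝ)) / 6) * (3 - 2 * ε) with hXdef
    have hchain : X * (ℓ * A) ≤ (3 - 2 * ε) * V := by
      have : X * (ℓ * A) = (3 - 2 * ε) * ((1 - 4 * ε - ε) * ℓ * (1 / 3 + (1 / (m : ℝ)) / 6) * A) := by
        rw [hXdef]; ring
      rw [this]
      exact mul_le_mul_of_nonneg_left hX h3e.le
    have h10 : ℓ * A ≤ X * (ℓ * A) := le_mul_of_one_le_left hℓA.le h2
    linarith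
  have hfinal : (1 - ε) * ℓ ≤ (3 - 2 * ε) * V / A := by
    rw [le_div_iff₀ hApos]
    have h4 : (1 - ε) * (ℓ * A) ≤ (1 - ε) * (3 * V) :=
      mul_le_mul_of_nonneg_left hRSy (by linarith)
    nlinarith
  rcases hends with hbot | htop
  · have hsub : {s | (y, s) ∈ C} ⊆ Icc (s0 + ε * ℓ) s1 := by
      intro s hs'
      refine ⟨?_, (hsecK hs').2⟩
      by_contra hn
      push Not at hn
      have := hbot (s - s0) (by linarith [(hsecK hs').1]) (by linarith)
      apply this
      simpa using hs'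
    refine (measure_mono hsub).trans ?_
    rw [Real.volume_Icc]
    apply ENNReal.ofReal_le_ofReal
    have : s1 - (s0 + ε * ℓ) = (1 - ε) * ℓ := by rw [hℓ]; ring
    rw [this]
    exact hfinal
  · have hsub : {s | (y, s) ∈ C} ⊆ Icc s0 (s1 - ε * ℓ) := by
      intro s hs'
      refine ⟨(hsecK hs').1, ?_⟩
      by_contra hn
      push Not at hn
      have := htop (s1 - s) (by linarith [(hsecK hs').2]) (by linarith)
      apply this
      simpa using hs'
    refine (measure_mono hsub).trans ?_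
    rw [Real.volume_Icc]
    apply ENNReal.ofReal_le_ofReal
    have : s1 - ε * ℓ - s0 = (1 - ε) * ℓ := by rw [hℓ]; ring
    rw [this]
    exact hfinal

/-- The Fubini estimate for a subset of `K` with bounded sections over the interior of the
projection. -/
theorem fubini_bound {K : Set F} (hc : IsCompact K) (hconv : Convex ℝ K) {C : Set F}
    (hCm : MeasurableSet C) (hCK : C ⊆ K) {M : ℝ≥0∞}
    (hsec : ∀ y ∈ interior (Prod.fst '' K), volume {s | (y, s) ∈ C} ≤ M) {B : Set (ℝ × ℝ)}
    (hB : MeasurableSet B) : volume (C ∩ Prod.fst ⁻¹' B) ≤ M * volume B := by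
  set P : Set (ℝ × ℝ) := Prod.fst '' K with hP
  have hPc : IsCompact P := hc.image continuous_fst
  have hPconv : Convex ℝ P := hconv.linear_image (LinearMap.fst ℝ (ℝ × ℝ) ℝ)
  have hfr : volume (frontier P) = 0 := hPconv.addHaar_frontier volume
  have hm : MeasurableSet (C ∩ Prod.fst ⁻¹' B) := hCm.inter (measurable_fst hB)
  rw [Measure.volume_eq_prod, Measure.prod_apply hm]
  have hae : ∀ᵐ y : ℝ × ℝ, volume (Prod.mk y ⁻¹' (C ∩ Prod.fst ⁻¹' B)) ≤
      B.indicator (fun _ => M) y := by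
    have hnot : ∀ᵐ y : ℝ × ℝ, y ∉ frontier P := measure_eq_zero_iff_ae_notMem.mp hfr
    filter_upwards [hnot] with y hy
    by_cases hyB : y ∈ B
    · rw [indicator_of_mem hyB]
      by_cases hyP : y ∈ P
      · have hyi : y ∈ interior P := by
          by_contra hn
          apply hy
          rw [frontier, hPc.isClosed.closure_eq]
          exact ⟨hyP, hn⟩
        refine (measure_mono ?_).trans (hsec y hyi)
        rintro s ⟨hs, _⟩
        exact hs
      · have : Prod.mk y ⁻¹' (C ∩ Prod.fst ⁻¹' B) = ∅ := by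
          ext s
          simp only [mem_preimage, mem_empty_iff_false, iff_false]
          rintro ⟨hs, _⟩
          exact hyP ⟨(y, s), hCK hs, rfl⟩
        simp [this]
    · rw [indicator_of_notMem hyB]
      have : Prod.mk y ⁻¹' (C ∩ Prod.fst ⁻¹' B) = ∅ := by
        ext s
        simp only [mem_preimage, mem_empty_iff_false, iff_false]
        rintro ⟨_, hs⟩
        exact hyB hs
      simp [this]
  calc ∫⁻ y, volume (Prod.mk y ⁻¹' (C ∩ Prod.fst ⁻¹' B))
      ≤ ∫⁻ y, B.indicator (fun _ => M) y := lintegral_mono_ae hae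
    _ = M * volume B := by rw [lintegral_indicator hB, setLIntegral_const]

/-- In the presence of a long chord the set of points with large lens has large volume. -/
theorem large_good {K : Set F} (hc : IsCompact K) (hconv : Convex ℝ K) {y : ℝ × ℝ}
    (hy : y ∈ interior (Prod.fst '' K)) {ε τ a1 : ℝ} (hτ : 0 ≤ τ) (ha1 : 0 < a1) (ha48 : 48 * a1 ≤ 1)
    {k : ℕ} (hk : 4 * (1 / 4 : ℝ) ^ k ≤ 1)
    (hlong : (3 - ε) * (volume K).toReal < chordLen K y * (volume (Prod.fst '' K)).toReal) :
    ((1 - ε / 3) * ((1 - 48 * a1) * (1 - 4 * (1 / 4) ^ k)) -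
        81 * 2 ^ k * (Real.log a1) ^ 2 * τ) * (volume K).toReal ≤
      (volume (good K (ENNReal.ofReal (τ * (volume K).toReal)))).toReal := by
  set V : ℝ := (volume K).toReal with hV
  have hV0 : 0 ≤ V := ENNReal.toReal_nonneg
  have hb := good_volume_lower hc hconv hy ha1 ha48 (θ := τ * V) (by positivity) k
  refine le_trans ?_ hb
  set A : ℝ := (volume (Prod.fst '' K)).toReal with hA
  set ℓ := chordLen K y with hℓ
  set X : ℝ := (1 - 48 * a1) * (1 - 4 * (1 / 4) ^ k) with hX
  have hX0 : 0 ≤ X := mul_nonneg (by linarith) (by linarith)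
  have h1 : (3 - ε) * V * X ≤ ℓ * A * X := mul_le_mul_of_nonneg_right hlong.le hX0
  have e1 : 2 * (ℓ / 6 * (1 - 48 * a1)) * (A * (1 - 4 * (1 / 4) ^ k)) = ℓ * A * X / 3 := by
    rw [hX]; ring
  have e2 : 6 * ((2 : ℝ) ^ k * (27 / 2 * (Real.log a1) ^ 2 * (τ * V))) =
      81 * 2 ^ k * (Real.log a1) ^ 2 * τ * V := by ring
  rw [e1, e2]
  have e3 : ((1 - ε / 3) * X - 81 * 2 ^ k * (Real.log a1) ^ 2 * τ) * V =
      (3 - ε) * V * X / 3 - 81 * 2 ^ k * (Real.log a1) ^ 2 * τ * V := by ring
  rw [e3]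
  linarith

end Vale.Agent.P243G
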