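import Vale.Agent.P243G.Chart
import Vale.Agent.P243G.Plane
import Vale.Agent.P243.Chord

/-!
The lens function and its lower bound on simplices inscribed in a convex body.
-/

open MeasureTheory Set
open scoped ENNReal

namespace Vale.Agent.P243G

open Vale.Agent.P243 (chordSet chordLen chordSet_eq_Icc chordLen_eq chordLen_nonneg)

/-- The lens at `x`: the intersection of `K` with its reflection in `x`. -/
def lens {X : Type*} [AddCommGroup X] [Module ℝ X] (K : Set X) (x : X) : Set X :=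
  {p | p ∈ K ∧ (2 : ℝ) • x - p ∈ K}

/-- The points of `K` whose lens has volume at least `θ`. -/
def good {X : Type*} [AddCommGroup X] [Module ℝ X] [MeasureSpace X] (K : Set X) (θ : ℝ≥0∞) : Set X :=
  {x | x ∈ K ∧ θ ≤ volume (lens K x)}

theorem measurableSet_good {K : Set F} (hK : IsClosed K) (θ : ℝ≥0∞) : MeasurableSet (good K θ) := by
  have hZ : IsClosed {q : F × F | q.2 ∈ K ∧ (2 : ℝ) • q.1 - q.2 ∈ K} :=
    (hK.preimage continuous_snd).inter (hK.preimage (by fun_prop))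
  have hm : Measurable fun x : F =>
      volume (Prod.mk x ⁻¹' {q : F × F | q.2 ∈ K ∧ (2 : ℝ) • q.1 - q.2 ∈ K}) :=
    measurable_measure_prodMk_left hZ.measurableSet
  have : good K θ = K ∩ {x | θ ≤ volume
      (Prod.mk x ⁻¹' {q : F × F | q.2 ∈ K ∧ (2 : ℝ) • q.1 - q.2 ∈ K})} := rfl
  rw [this]
  exact hK.measurableSet.inter (measurableSet_le measurable_const hm)

/-- The affine chart with base vertex `v` and the other vertices `a b c`. -/
noncomputable def phi (v a b c t : F) : F := v + linChart (a - v) (b - v) (c - v) t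

theorem phi_apply (v a b c t : F) :
    phi v a b c t = v + (t.1.1 • (a - v) + t.1.2 • (b - v) + t.2 • (c - v)) := by
  rw [phi, linChart_apply]

theorem phi_mem {K : Set F} (hK : Convex ℝ K) {v a b c : F} (hv : v ∈ K) (ha : a ∈ K) (hb : b ∈ K)
    (hc : c ∈ K) {t : F} (ht : t ∈ stdSimplex3) : phi v a b c t ∈ K := by
  obtain ⟨h1, h2, h3, h4⟩ := ht
  have h := hK.sum_mem (t := Finset.univ) (w := ![1 - t.1.1 - t.1.2 - t.2, t.1.1, t.1.2, t.2])
    (z := ![v, a, b, c])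
    (by
      intro i _
      fin_cases i <;> simp <;> linarith)
    (by simp [Fin.sum_univ_four]; ring)
    (by
      intro i _
      fin_cases i <;> simp [hv, ha, hb, hc])
  rw [Fin.sum_univ_four] at h
  have he : phi v a b c t = (1 - t.1.1 - t.1.2 - t.2) • v + t.1.1 • a + t.1.2 • b + t.2 • c := by
    rw [phi_apply]; module
  rw [he]
  simpa using h

theorem phi_add_lin (v a b c t s : F) :
    phi v a b c t + linChart (a - v) (b - v) (c - v) s = phi v a b c (t + s) := by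
  rw [phi, phi, map_add, add_assoc]

theorem two_phi_sub (v a b c t s : F) :
    (2 : ℝ) • phi v a b c t - (phi v a b c t + linChart (a - v) (b - v) (c - v) s)
      = phi v a b c (t - s) := by
  rw [phi, phi, map_sub]
  module

/-- The box around the point with coordinates `t`. -/
def box3 (t : F) : Set F :=
  (Icc (-(t.1.1 / 3)) (t.1.1 / 3) ×ˢ Icc (-(t.1.2 / 3)) (t.1.2 / 3)) ×ˢ Icc (-(t.2 / 3)) (t.2 / 3)

theorem volume_box3 (t : F) (h1 : 0 ≤ t.1.1) (h2 : 0 ≤ t.1.2) (h3 : 0 ≤ t.2) :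
    volume (box3 t) = ENNReal.ofReal (8 / 27 * (t.1.1 * t.1.2 * t.2)) := by
  rw [box3, Measure.volume_eq_prod, Measure.prod_prod, Measure.volume_eq_prod, Measure.prod_prod,
    Real.volume_Icc, Real.volume_Icc, Real.volume_Icc, ← ENNReal.ofReal_mul (by linarith),
    ← ENNReal.ofReal_mul (by nlinarith [mul_nonneg h1 h2])]
  congr 1
  ring

theorem box_subset_lens {K : Set F} (hK : Convex ℝ K) {v a b c : F} (hv : v ∈ K) (ha : a ∈ K)
    (hb : b ∈ K) (hc : c ∈ K) {t : F} (h1 : 0 ≤ t.1.1) (h2 : 0 ≤ t.1.2) (h3 : 0 ≤ t.2)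
    (hs : t.1.1 + t.1.2 + t.2 ≤ 3 / 4) :
    (fun s => phi v a b c t + linChart (a - v) (b - v) (c - v) s) '' box3 t ⊆
      lens K (phi v a b c t) := by
  rintro _ ⟨s, ⟨⟨hs1, hs2⟩, hs3⟩, rfl⟩
  have hs1' := hs1.1
  have hs1'' := hs1.2
  have hs2' := hs2.1
  have hs2'' := hs2.2
  have hs3' := hs3.1
  have hs3'' := hs3.2
  dsimp only at *
  constructor
  · rw [phi_add_lin]
    apply phi_mem hK hv ha hb hc
    refine ⟨?_, ?_, ?_, ?_⟩
    · show 0 ≤ t.1.1 + s.1.1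
      linarith
    · show 0 ≤ t.1.2 + s.1.2
      linarith
    · show 0 ≤ t.2 + s.2
      linarith
    · show t.1.1 + s.1.1 + (t.1.2 + s.1.2) + (t.2 + s.2) ≤ 1
      linarith
  · rw [two_phi_sub]
    apply phi_mem hK hv ha hb hc
    refine ⟨?_, ?_, ?_, ?_⟩
    · show 0 ≤ t.1.1 - s.1.1
      linarith
    · show 0 ≤ t.1.2 - s.1.2
      linarith
    · show 0 ≤ t.2 - s.2
      linarith
    · show t.1.1 - s.1.1 + (t.1.2 - s.1.2) + (t.2 - s.2) ≤ 1
      linarith

/-- A bad point in the chart has small product of coordinates. -/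
theorem bad_mem_Sw {K : Set F} (hK : Convex ℝ K) {v a b c : F} (hv : v ∈ K) (ha : a ∈ K)
    (hb : b ∈ K) (hc : c ∈ K) {θ Δ : ℝ} (hΔ : Δ = |det3 (a - v) (b - v) (c - v)|) (hΔpos : 0 < Δ)
    (hθ : 0 ≤ θ) {t : F} (h1 : 0 ≤ t.1.1) (h2 : 0 ≤ t.1.2) (h3 : 0 ≤ t.2)
    (hs : t.1.1 + t.1.2 + t.2 ≤ 3 / 4)
    (hbad : phi v a b c t ∉ good K (ENNReal.ofReal θ)) : t ∈ Sw (27 * θ / (8 * Δ)) := by
  refine ⟨⟨h1, by linarith⟩, ⟨h2, by linarith⟩, ⟨h3, by linarith⟩, ?_⟩
  have hx : phi v a b c t ∈ K := phi_mem hK hv ha hb hc ⟨h1, h2, h3, by linarith⟩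
  have hlt : volume (lens K (phi v a b c t)) < ENNReal.ofReal θ := by
    by_contra hcon
    exact hbad ⟨hx, not_lt.mp hcon⟩
  have hle : volume ((fun s => phi v a b c t + linChart (a - v) (b - v) (c - v) s) '' box3 t) ≤
      volume (lens K (phi v a b c t)) := measure_mono (box_subset_lens hK hv ha hb hc h1 h2 h3 hs)
  rw [volume_chart_image, volume_box3 t h1 h2 h3, ← hΔ, ← ENNReal.ofReal_mul hΔpos.le] at hle
  have hlt2 := (hle.trans_lt hlt)
  have hlt3 : Δ * (8 / 27 * (t.1.1 * t.1.2 * t.2)) < θ := by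
    by_contra hcon
    exact absurd hlt2 (not_lt.mpr (ENNReal.ofReal_le_ofReal (not_lt.mp hcon)))
  rw [lt_div_iff₀ (by positivity)]
  nlinarith

theorem volume_phi_Sw (v a b c : F) {a1 w Δ : ℝ} (ha1 : 0 < a1) (ha1' : a1 ≤ 1) (hw : 0 ≤ w)
    (hΔ : Δ = |det3 (a - v) (b - v) (c - v)|) (hΔ0 : 0 ≤ Δ) :
    volume (phi v a b c '' Sw w) ≤ ENNReal.ofReal (Δ * (2 * a1 + (Real.log a1) ^ 2 * w)) := by
  have h := volume_chart_image v (a - v) (b - v) (c - v) (Sw w)
  have he : phi v a b c = fun t => v + linChart (a - v) (b - v) (c - v) t := rfl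
  rw [he, h, ← hΔ, ENNReal.ofReal_mul hΔ0]
  gcongr
  exact volume_Sw_le ha1 ha1' hw

theorem det_perm1 (v0 v1 v2 v3 : F) :
    det3 (v0 - v1) (v2 - v1) (v3 - v1) = - det3 (v1 - v0) (v2 - v0) (v3 - v0) := by
  simp only [det3, Prod.fst_sub, Prod.snd_sub]; ring

theorem det_perm2 (v0 v1 v2 v3 : F) :
    det3 (v0 - v2) (v1 - v2) (v3 - v2) = det3 (v1 - v0) (v2 - v0) (v3 - v0) := by
  simp only [det3, Prod.fst_sub, Prod.snd_sub]; ring

theorem det_perm3 (v0 v1 v2 v3 : F) :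
    det3 (v0 - v3) (v1 - v3) (v2 - v3) = - det3 (v1 - v0) (v2 - v0) (v3 - v0) := by
  simp only [det3, Prod.fst_sub, Prod.snd_sub]; ring

/-- The bad part of a simplex has small volume. -/
theorem simplex_bad {K : Set F} (hK : Convex ℝ K) {v0 v1 v2 v3 : F} (h0 : v0 ∈ K) (h1 : v1 ∈ K)
    (h2 : v2 ∈ K) (h3 : v3 ∈ K) {a1 θ Δ : ℝ} (ha1 : 0 < a1) (ha1' : a1 ≤ 1) (hθ : 0 ≤ θ)
    (hΔ : Δ = |det3 (v1 - v0) (v2 - v0) (v3 - v0)|) (hΔpos : 0 < Δ) :
    volume ((phi v0 v1 v2 v3 '' stdSimplex3) \ good K (ENNReal.ofReal θ)) ≤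
      ENNReal.ofReal (8 * a1 * Δ + 27 / 2 * (Real.log a1) ^ 2 * θ) := by
  set w : ℝ := 27 * θ / (8 * Δ) with hw
  have hw0 : 0 ≤ w := by positivity
  have hΔ1 : Δ = |det3 (v0 - v1) (v2 - v1) (v3 - v1)| := by rw [det_perm1, abs_neg]; exact hΔ
  have hΔ2 : Δ = |det3 (v0 - v2) (v1 - v2) (v3 - v2)| := by rw [det_perm2]; exact hΔ
  have hΔ3 : Δ = |det3 (v0 - v3) (v1 - v3) (v2 - v3)| := by rw [det_perm3, abs_neg]; exact hΔ
  have hsub : (phi v0 v1 v2 v3 '' stdSimplex3) \ good K (ENNReal.ofReal θ) ⊆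
      phi v0 v1 v2 v3 '' Sw w ∪ phi v1 v0 v2 v3 '' Sw w ∪ phi v2 v0 v1 v3 '' Sw w ∪
        phi v3 v0 v1 v2 '' Sw w := by
    rintro _ ⟨⟨t, ⟨ht1, ht2, ht3, ht4⟩, rfl⟩, hbad⟩
    set l0 : ℝ := 1 - t.1.1 - t.1.2 - t.2 with hl0
    have hl0' : 0 ≤ l0 := by rw [hl0]; linarith
    by_cases c0 : 1 / 4 ≤ l0
    · refine Or.inl (Or.inl (Or.inl ⟨t, ?_, rfl⟩))
      exact bad_mem_Sw hK h0 h1 h2 h3 hΔ hΔpos hθ ht1 ht2 ht3 (by rw [hl0] at c0; linarith) hbad
    by_cases c1 : 1 / 4 ≤ t.1.1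
    · have he : phi v0 v1 v2 v3 t = phi v1 v0 v2 v3 ((l0, t.1.2), t.2) := by
        rw [phi_apply, phi_apply, hl0]; dsimp only; module
      refine Or.inl (Or.inl (Or.inr ⟨((l0, t.1.2), t.2), ?_, he.symm⟩))
      rw [he] at hbad
      refine bad_mem_Sw hK h1 h0 h2 h3 hΔ1 hΔpos hθ hl0' ht2 ht3 ?_ hbad
      dsimp only
      rw [hl0]; linarith
    by_cases c2 : 1 / 4 ≤ t.1.2
    · have he : phi v0 v1 v2 v3 t = phi v2 v0 v1 v3 ((l0, t.1.1), t.2) := by
        rw [phi_apply, phi_apply, hl0]; dsimp only; module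
      refine Or.inl (Or.inr ⟨((l0, t.1.1), t.2), ?_, he.symm⟩)
      rw [he] at hbad
      refine bad_mem_Sw hK h2 h0 h1 h3 hΔ2 hΔpos hθ hl0' ht1 ht3 ?_ hbad
      dsimp only
      rw [hl0]; linarith
    · have c3 : 1 / 4 ≤ t.2 := by
        push Not at c0 c1 c2
        rw [hl0] at c0
        linarith
      have he : phi v0 v1 v2 v3 t = phi v3 v0 v1 v2 ((l0, t.1.1), t.1.2) := by
        rw [phi_apply, phi_apply, hl0]; dsimp only; module
      refine Or.inr ⟨((l0, t.1.1), t.1.2), ?_, he.symm⟩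
      rw [he] at hbad
      refine bad_mem_Sw hK h3 h0 h1 h2 hΔ3 hΔpos hθ hl0' ht1 ht2 ?_ hbad
      dsimp only
      rw [hl0]; linarith
  have hv0 := volume_phi_Sw v0 v1 v2 v3 ha1 ha1' hw0 hΔ hΔpos.le
  have hv1 := volume_phi_Sw v1 v0 v2 v3 ha1 ha1' hw0 hΔ1 hΔpos.le
  have hv2 := volume_phi_Sw v2 v0 v1 v3 ha1 ha1' hw0 hΔ2 hΔpos.le
  have hv3 := volume_phi_Sw v3 v0 v1 v2 ha1 ha1' hw0 hΔ3 hΔpos.le
  have hnn : 0 ≤ Δ * (2 * a1 + (Real.log a1) ^ 2 * w) := by positivity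
  calc _ ≤ volume (phi v0 v1 v2 v3 '' Sw w ∪ phi v1 v0 v2 v3 '' Sw w ∪ phi v2 v0 v1 v3 '' Sw w ∪
        phi v3 v0 v1 v2 '' Sw w) := measure_mono hsub
    _ ≤ volume (phi v0 v1 v2 v3 '' Sw w) + volume (phi v1 v0 v2 v3 '' Sw w) +
        volume (phi v2 v0 v1 v3 '' Sw w) + volume (phi v3 v0 v1 v2 '' Sw w) := by
        refine (measure_union_le _ _).trans ?_
        gcongr
        refine (measure_union_le _ _).trans ?_
        gcongr
        exact measure_union_le _ _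
    _ ≤ ENNReal.ofReal (Δ * (2 * a1 + (Real.log a1) ^ 2 * w)) +
        ENNReal.ofReal (Δ * (2 * a1 + (Real.log a1) ^ 2 * w)) +
        ENNReal.ofReal (Δ * (2 * a1 + (Real.log a1) ^ 2 * w)) +
        ENNReal.ofReal (Δ * (2 * a1 + (Real.log a1) ^ 2 * w)) := by gcongr
    _ = ENNReal.ofReal (8 * a1 * Δ + 27 / 2 * (Real.log a1) ^ 2 * θ) := by
        rw [← ENNReal.ofReal_add hnn hnn, ← ENNReal.ofReal_add (by positivity) hnn,
          ← ENNReal.ofReal_add (by positivity) hnn]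
        congr 1
        rw [hw]
        field_simp
        ring

/-- The volume of an inscribed simplex. -/
theorem volume_phi_simplex (v0 v1 v2 v3 : F) {Δ : ℝ}
    (hΔ : Δ = |det3 (v1 - v0) (v2 - v0) (v3 - v0)|) (hΔ0 : 0 ≤ Δ) :
    volume (phi v0 v1 v2 v3 '' stdSimplex3) = ENNReal.ofReal (Δ / 6) := by
  have h := volume_chart_image v0 (v1 - v0) (v2 - v0) (v3 - v0) stdSimplex3
  have he : phi v0 v1 v2 v3 = fun t => v0 + linChart (v1 - v0) (v2 - v0) (v3 - v0) t := rfl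
  rw [he, h, ← hΔ, volume_stdSimplex3, ← ENNReal.ofReal_mul hΔ0]
  congr 1
  ring

/-- The lens lower bound on a sector. -/
theorem leaf_bound {K : Set F} (hc : IsCompact K) (hconv : Convex ℝ K) {y a b : ℝ × ℝ}
    (hy : y ∈ Prod.fst '' K) (ha : a ∈ Prod.fst '' K) (hb : b ∈ Prod.fst '' K) (hD : 0 < D y a b)
    {a1 θ : ℝ} (ha1 : 0 < a1) (ha1' : a1 ≤ 1) (hθ : 0 ≤ θ) (ha48 : 48 * a1 ≤ 1) :
    (chordLen K y / 6 * (1 - 48 * a1)) * D y a b - 27 / 2 * (Real.log a1) ^ 2 * θ ≤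
      (volume (good K (ENNReal.ofReal θ) ∩ Prod.fst ⁻¹' Wo y a b)).toReal := by
  obtain ⟨s0, s1, hs01, hs⟩ := chordSet_eq_Icc hc hconv hy
  have hlen : chordLen K y = s1 - s0 := chordLen_eq hs01 hs
  set ℓ := chordLen K y with hℓ
  have hL0 : 0 ≤ 27 / 2 * (Real.log a1) ^ 2 * θ := by positivity
  rcases (chordLen_nonneg K y).eq_or_lt with hz | hpos
  · rw [← hℓ] at hz
    rw [← hz]
    have : (0 : ℝ) / 6 * (1 - 48 * a1) * D y a b = 0 := by ring
    rw [this]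
    have : (0 : ℝ) ≤ (volume (good K (ENNReal.ofReal θ) ∩ Prod.fst ⁻¹' Wo y a b)).toReal :=
      ENNReal.toReal_nonneg
    linarith
  obtain ⟨⟨a', α⟩, hα, rfl⟩ := ha
  obtain ⟨⟨b', β⟩, hβ, rfl⟩ := hb
  dsimp only at hD ⊢
  have hv0 : (y, s0) ∈ K := by
    have : s0 ∈ chordSet K y := by rw [hs]; exact left_mem_Icc.mpr hs01
    exact this
  have hv1 : (y, s1) ∈ K := by
    have : s1 ∈ chordSet K y := by rw [hs]; exact right_mem_Icc.mpr hs01
    exact this
  set v0 : F := (y, s0) with hv0def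
  set v1 : F := (y, s1) with hv1def
  set v2 : F := (a', α) with hv2def
  set v3 : F := (b', β) with hv3def
  set Δ : ℝ := ℓ * D y a' b' with hΔdef
  have hΔpos : 0 < Δ := mul_pos hpos hD
  have hdet : Δ = |det3 (v1 - v0) (v2 - v0) (v3 - v0)| := by
    have : det3 (v1 - v0) (v2 - v0) (v3 - v0) = Δ := by
      rw [hΔdef, hlen]
      simp only [det3, hv0def, hv1def, hv2def, hv3def, D, Prod.fst_sub, Prod.snd_sub]
      ring
    rw [this, abs_of_pos hΔpos]
  have hbad := simplex_bad hconv hv0 hv1 hα hβ ha1 ha1' hθ hdet hΔpos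
  have hvol := volume_phi_simplex v0 v1 v2 v3 hdet hΔpos.le
  -- the simplex projects into the closed wedge
  set T := phi v0 v1 v2 v3 '' stdSimplex3 with hT
  set C := good K (ENNReal.ofReal θ) with hC
  have hsub : T ∩ C ⊆ (C ∩ Prod.fst ⁻¹' Wo y a' b') ∪
      (Prod.fst ⁻¹' {p | D y a' p = 0} ∪ Prod.fst ⁻¹' {p | D y b' p = 0}) := by
    rintro x ⟨⟨t, ⟨ht1, ht2, ht3, ht4⟩, rfl⟩, hxC⟩
    have hfst : (phi v0 v1 v2 v3 t).1 =
        (y.1 + (t.1.2 * (a'.1 - y.1) + t.2 * (b'.1 - y.1)),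
         y.2 + (t.1.2 * (a'.2 - y.2) + t.2 * (b'.2 - y.2))) := by
      rw [phi_apply]
      simp only [hv0def, hv1def, hv2def, hv3def]
      ext <;> simp
    have hD1 : D y a' (phi v0 v1 v2 v3 t).1 = t.2 * D y a' b' := by
      rw [hfst]; simp only [D]; ring
    have hD2 : D y b' (phi v0 v1 v2 v3 t).1 = - (t.1.2 * D y a' b') := by
      rw [hfst]; simp only [D]; ring
    have hD3 : D y (phi v0 v1 v2 v3 t).1 b' = t.1.2 * D y a' b' := by
      rw [D_swap, hD2]; ring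
    by_cases h2 : t.2 = 0
    · refine Or.inr (Or.inl ?_)
      show D y a' _ = 0
      rw [hD1, h2, zero_mul]
    by_cases h3 : t.1.2 = 0
    · refine Or.inr (Or.inr ?_)
      show D y b' _ = 0
      rw [hD2, h3]
      ring
    refine Or.inl ⟨hxC, ?_, ?_⟩
    · show 0 < D y a' _
      rw [hD1]
      exact mul_pos (lt_of_le_of_ne ht3 (Ne.symm h2)) hD
    · show 0 < D y _ b'
      rw [hD3]
      exact mul_pos (lt_of_le_of_ne ht2 (Ne.symm h3)) hD
  have hne1 : y ≠ a' := ne_of_D_pos_left hD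
  have hne2 : y ≠ b' := by
    rintro rfl
    have : D y a' y = 0 := by unfold D; ring
    linarith
  have hnull : ∀ q : ℝ × ℝ, y ≠ q → volume (Prod.fst ⁻¹' {p | D y q p = 0} : Set F) = 0 := by
    intro q hq
    have hl := volume_line hq
    have hm : (Prod.fst ⁻¹' {p | D y q p = 0} : Set F) = {p | D y q p = 0} ×ˢ univ := by
      ext x; simp
    rw [hm, Measure.volume_eq_prod, Measure.prod_prod, hl, zero_mul]
  have hle : volume (T ∩ C) ≤ volume (C ∩ Prod.fst ⁻¹' Wo y a' b') := by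
    refine (measure_mono hsub).trans ?_
    refine (measure_union_le _ _).trans ?_
    have : volume (Prod.fst ⁻¹' {p | D y a' p = 0} ∪ Prod.fst ⁻¹' {p | D y b' p = 0} : Set F) = 0 :=
      measure_union_null (hnull _ hne1) (hnull _ hne2)
    rw [this, add_zero]
  have hCfin : volume (C ∩ Prod.fst ⁻¹' Wo y a' b') ≠ ⊤ := by
    refine ((measure_mono ?_).trans_lt hc.measure_lt_top).ne
    rintro x ⟨hx, _⟩
    exact hx.1
  have hTsplit : volume T ≤ volume (T ∩ C) + volume (T \ C) := by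
    have hsplit : T ⊆ (T ∩ C) ∪ (T \ C) := by
      intro x hx
      by_cases hxC : x ∈ C
      · exact Or.inl ⟨hx, hxC⟩
      · exact Or.inr ⟨hx, hxC⟩
    exact (measure_mono hsplit).trans (measure_union_le _ _)
  have hfinal : ENNReal.ofReal (Δ / 6) ≤ volume (C ∩ Prod.fst ⁻¹' Wo y a' b') +
      ENNReal.ofReal (8 * a1 * Δ + 27 / 2 * (Real.log a1) ^ 2 * θ) := by
    rw [← hvol]
    refine hTsplit.trans ?_
    gcongr
  have hnn : 0 ≤ 8 * a1 * Δ + 27 / 2 * (Real.log a1) ^ 2 * θ := by positivity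
  have hreal := ENNReal.toReal_mono (ENNReal.add_ne_top.mpr ⟨hCfin, ENNReal.ofReal_ne_top⟩) hfinal
  rw [ENNReal.toReal_ofReal (by positivity), ENNReal.toReal_add hCfin ENNReal.ofReal_ne_top,
    ENNReal.toReal_ofReal hnn] at hreal
  have : ℓ / 6 * (1 - 48 * a1) * D y a' b' = Δ / 6 - 8 * a1 * Δ := by
    rw [hΔdef]; ring
  rw [this]
  linarith

/-- **The lens lower bound.** The set of points with large lens has large volume as soon as there
is a long chord over an interior point of the projection. -/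
theorem good_volume_lower {K : Set F} (hc : IsCompact K) (hconv : Convex ℝ K) {y : ℝ × ℝ}
    (hy : y ∈ interior (Prod.fst '' K)) {a1 θ : ℝ} (ha1 : 0 < a1) (ha48 : 48 * a1 ≤ 1)
    (hθ : 0 ≤ θ) (k : ℕ) :
    2 * (chordLen K y / 6 * (1 - 48 * a1)) * ((volume (Prod.fst '' K)).toReal * (1 - 4 * (1 / 4) ^ k))
        - 6 * (2 ^ k * (27 / 2 * (Real.log a1) ^ 2 * θ)) ≤
      (volume (good K (ENNReal.ofReal θ))).toReal := by
  have ha1' : a1 ≤ 1 := by linarith
  have hPc : IsCompact (Prod.fst '' K) := hc.image continuous_fst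
  have hPconv : Convex ℝ (Prod.fst '' K) := hconv.linear_image (LinearMap.fst ℝ (ℝ × ℝ) ℝ)
  set C := good K (ENNReal.ofReal θ) with hC
  have hCm : MeasurableSet C := measurableSet_good hc.isClosed _
  have hCfin : ∀ S : Set F, volume (C ∩ S) ≠ ⊤ := by
    intro S
    refine ((measure_mono ?_).trans_lt hc.measure_lt_top).ne
    rintro x ⟨hx, _⟩
    exact hx.1
  have hb := plane_bound hPc hPconv hy
    (fun S => (volume (C ∩ Prod.fst ⁻¹' S)).toReal) (fun S => ENNReal.toReal_nonneg)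
    (by
      intro S S1 S2 hS1 hS2 hd hsub1 hsub2
      have hm2 : MeasurableSet (C ∩ Prod.fst ⁻¹' S2) := hCm.inter (measurable_fst hS2)
      have hdisj : Disjoint (C ∩ Prod.fst ⁻¹' S1) (C ∩ Prod.fst ⁻¹' S2) := by
        rw [Set.disjoint_left]
        rintro x ⟨_, hx1⟩ ⟨_, hx2⟩
        exact (Set.disjoint_left.mp hd) hx1 hx2
      have hunion := measure_union hdisj hm2 (μ := volume)
      have hle : volume ((C ∩ Prod.fst ⁻¹' S1) ∪ (C ∩ Prod.fst ⁻¹' S2)) ≤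
          volume (C ∩ Prod.fst ⁻¹' S) := by
        apply measure_mono
        rintro x (⟨hx, hx1⟩ | ⟨hx, hx2⟩)
        · exact ⟨hx, hsub1 hx1⟩
        · exact ⟨hx, hsub2 hx2⟩
      rw [hunion] at hle
      have := ENNReal.toReal_mono (hCfin _) hle
      rwa [ENNReal.toReal_add (hCfin _) (hCfin _)] at this)
    (chordLen K y / 6 * (1 - 48 * a1)) (27 / 2 * (Real.log a1) ^ 2 * θ)
    (mul_nonneg (div_nonneg (chordLen_nonneg K y) (by norm_num)) (by linarith))
    (by positivity)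
    (by
      intro a ha b hb hD
      exact leaf_bound hc hconv (interior_subset hy) ha hb hD ha1 ha1' hθ ha48) k
  simpa using hb

end Vale.Agent.P243G
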