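import Vale.Agent.P243G.Geom

/-!
Inscribed fans in a planar compact set: the recursive cap estimate.
-/

open MeasureTheory Set
open scoped ENNReal

namespace Vale.Agent.P243G

/-- The open wedge at `y` between the rays through `a` and `b`. -/
def Wo (y a b : ℝ × ℝ) : Set (ℝ × ℝ) := {p | 0 < D y a p ∧ 0 < D y p b}

/-- The closed wedge at `y` between the rays through `a` and `b`. -/
def Wc (y a b : ℝ × ℝ) : Set (ℝ × ℝ) := {p | 0 ≤ D y a p ∧ 0 ≤ D y p b}

theorem isOpen_Wo (y a b : ℝ × ℝ) : IsOpen (Wo y a b) :=
  (isOpen_lt continuous_const (D_continuous y a)).inter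
    (isOpen_lt continuous_const (D_continuous' y b))

theorem isClosed_Wc (y a b : ℝ × ℝ) : IsClosed (Wc y a b) :=
  (isClosed_le continuous_const (D_continuous y a)).inter
    (isClosed_le continuous_const (D_continuous' y b))

theorem Wo_subset_Wc (y a b : ℝ × ℝ) : Wo y a b ⊆ Wc y a b := fun _ hp => ⟨hp.1.le, hp.2.le⟩

theorem plucker1 (y a b c p : ℝ × ℝ) :
    D y p b * D y a c = D y p c * D y a b + D y a p * D y c b := by unfold D; ring

theorem plucker2 (y a b c p : ℝ × ℝ) :
    D y a p * D y c b = D y a b * D y c p + D y a c * D y p b := by unfold D; ring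

theorem pos_left_of_mul_pos {x z : ℝ} (h : 0 < x * z) (hz : 0 ≤ z) : 0 < x := by
  by_contra hx
  push Not at hx
  have := mul_nonpos_of_nonpos_of_nonneg hx hz
  linarith

theorem D_rot (b y p : ℝ × ℝ) : D b y p = D y p b := by unfold D; ring

theorem Wo_sub_left {y a b c : ℝ × ℝ} (h1 : 0 ≤ D y a c) (h2 : 0 ≤ D y c b) (h3 : 0 < D y a b) :
    Wo y a c ⊆ Wo y a b := by
  rintro p ⟨hp1, hp2⟩
  refine ⟨hp1, ?_⟩
  have hpos : 0 < D y p b * D y a c := by
    rw [plucker1 y a b c p]
    have := mul_pos hp2 h3
    have := mul_nonneg hp1.le h2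
    linarith
  exact pos_left_of_mul_pos hpos h1

theorem Wo_sub_right {y a b c : ℝ × ℝ} (h1 : 0 ≤ D y a c) (h2 : 0 ≤ D y c b) (h3 : 0 < D y a b) :
    Wo y c b ⊆ Wo y a b := by
  rintro p ⟨hp1, hp2⟩
  refine ⟨?_, hp2⟩
  have hpos : 0 < D y a p * D y c b := by
    rw [plucker2 y a b c p]
    have := mul_pos h3 hp1
    have := mul_nonneg h1 hp2.le
    linarith
  exact pos_left_of_mul_pos hpos h2

theorem Wo_disjoint (y a b c : ℝ × ℝ) : Disjoint (Wo y a c) (Wo y c b) := by
  rw [Set.disjoint_left]
  rintro p ⟨_, hp2⟩ ⟨hq1, _⟩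
  rw [D_swap] at hp2
  linarith

theorem Wo_cover (y a b c : ℝ × ℝ) :
    Wo y a b ⊆ Wo y a c ∪ Wo y c b ∪ {p | D y c p = 0} := by
  rintro p ⟨hp1, hp2⟩
  rcases lt_trichotomy (D y c p) 0 with h | h | h
  · refine Or.inl (Or.inl ⟨hp1, ?_⟩)
    rw [D_swap]
    linarith
  · exact Or.inr h
  · exact Or.inl (Or.inr ⟨h, hp2⟩)

/-- The cap hypothesis: the points of `P` in the wedge beyond the chord `a b` lie in the triangle
`a e b`. -/
def HB (P : Set (ℝ × ℝ)) (y a b e : ℝ × ℝ) : Prop :=
  ∀ p ∈ P, p ∈ Wc y a b → D a b p ≤ 0 → 0 ≤ D a e p ∧ 0 ≤ D e b p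

theorem ne_of_D_pos {y a b : ℝ × ℝ} (h : 0 < D y a b) : a ≠ b := by
  rintro rfl
  rw [D_self_right] at h
  exact lt_irrefl _ h

theorem area_base {P : Set (ℝ × ℝ)} {y a b e : ℝ × ℝ} (h : 0 < D y a b) (hE : 0 ≤ D a e b)
    (hH : HB P y a b e) :
    volume (P ∩ Wo y a b) ≤ ENNReal.ofReal (D y a b / 2) + ENNReal.ofReal (D a e b / 2) := by
  have hsub : P ∩ Wo y a b ⊆ tri y a b ∪ tri a e b := by
    rintro p ⟨hP, hW⟩
    by_cases hp : 0 ≤ D a b p
    · refine Or.inl ⟨hW.1.le, hp, ?_⟩
      rw [D_rot]
      exact hW.2.le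
    · push Not at hp
      obtain ⟨h1, h2⟩ := hH p hP (Wo_subset_Wc _ _ _ hW) hp.le
      refine Or.inr ⟨h1, h2, ?_⟩
      rw [D_swap b a p, D_cycle b p a, D_cycle p a b]
      linarith
  calc volume (P ∩ Wo y a b) ≤ volume (tri y a b ∪ tri a e b) := measure_mono hsub
    _ ≤ volume (tri y a b) + volume (tri a e b) := measure_union_le _ _
    _ ≤ _ := by
      rw [volume_tri h]
      gcongr
      exact volume_tri_le (ne_of_D_pos h) hE

theorem area_tri_only {P : Set (ℝ × ℝ)} {y a b : ℝ × ℝ} (h : 0 < D y a b)
    (hH : ∀ p ∈ P, p ∈ Wc y a b → 0 ≤ D a b p) :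
    volume (P ∩ Wo y a b) ≤ ENNReal.ofReal (D y a b / 2) := by
  have hsub : P ∩ Wo y a b ⊆ tri y a b := by
    rintro p ⟨hP, hW⟩
    refine ⟨hW.1.le, hH p hP (Wo_subset_Wc _ _ _ hW), ?_⟩
    rw [D_rot]
    exact hW.2.le
  exact (measure_mono hsub).trans (volume_tri h).le

/-- The data of the recursion: a compact set, a superadditive set function, and a lower bound for
the set function on wedges in terms of the inscribed triangle. -/
theorem rec_bound {P : Set (ℝ × ℝ)} (hPc : IsCompact P) (y : ℝ × ℝ) (G : Set (ℝ × ℝ) → ℝ)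
    (hG0 : ∀ S, 0 ≤ G S)
    (hGadd : ∀ S S1 S2, MeasurableSet S1 → MeasurableSet S2 → Disjoint S1 S2 → S1 ⊆ S → S2 ⊆ S →
      G S1 + G S2 ≤ G S)
    (c0 L : ℝ) (hc0 : 0 ≤ c0) (hL : 0 ≤ L)
    (hleaf : ∀ a ∈ P, ∀ b ∈ P, 0 < D y a b → c0 * D y a b - L ≤ G (Wo y a b)) (k : ℕ) :
    ∀ a ∈ P, ∀ b ∈ P, ∀ e, 0 < D y a b → 0 ≤ D a e b → HB P y a b e →
      2 * c0 * ((volume (P ∩ Wo y a b)).toReal - (1 / 4) ^ k * (D a e b / 2)) - 2 ^ k * L ≤
        G (Wo y a b) := by
  have hfin : ∀ X : Set (ℝ × ℝ), volume (P ∩ X) ≠ ⊤ := fun X =>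
    ((measure_mono inter_subset_left).trans_lt hPc.measure_lt_top).ne
  induction k with
  | zero =>
    intro a ha b hb e hab hE hH
    have h1 := hleaf a ha b hb hab
    have h2 := area_base hab hE hH
    have h3 : (volume (P ∩ Wo y a b)).toReal ≤ D y a b / 2 + D a e b / 2 := by
      have h4 : ENNReal.ofReal (D y a b / 2) + ENNReal.ofReal (D a e b / 2) =
          ENNReal.ofReal (D y a b / 2 + D a e b / 2) :=
        (ENNReal.ofReal_add (by positivity) (by positivity)).symm
      rw [h4] at h2
      exact ENNReal.toReal_le_of_le_ofReal (by positivity) h2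
    have h5 : 2 * c0 * ((volume (P ∩ Wo y a b)).toReal - D a e b / 2) ≤ c0 * D y a b := by
      have : (volume (P ∩ Wo y a b)).toReal - D a e b / 2 ≤ D y a b / 2 := by linarith
      calc 2 * c0 * ((volume (P ∩ Wo y a b)).toReal - D a e b / 2)
          ≤ 2 * c0 * (D y a b / 2) := mul_le_mul_of_nonneg_left this (by positivity)
        _ = c0 * D y a b := by ring
    simp only [pow_zero, one_mul]
    linarith
  | succ k ih =>
    intro a ha b hb e hab hE hH
    have hSc : IsCompact (P ∩ Wc y a b) := hPc.inter_right (isClosed_Wc y a b)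
    have hSne : (P ∩ Wc y a b).Nonempty := by
      refine ⟨a, ha, ?_, ?_⟩
      · rw [D_self_right]
      · exact hab.le
    obtain ⟨c, ⟨hcP, hcW⟩, hmin⟩ :=
      hSc.exists_isMinOn hSne (D_continuous a b).continuousOn
    have hmin' : ∀ p ∈ P, p ∈ Wc y a b → D a b c ≤ D a b p := fun p hp hpW => hmin ⟨hp, hpW⟩
    have hX : (0 : ℝ) ≤ (1 / 4) ^ k := by positivity
    have hY : (0 : ℝ) < 2 ^ k := by positivity
    rcases le_or_gt 0 (D a b c) with hc | hc
    · -- no cap
      have h1 := hleaf a ha b hb hab
      have h2 := area_tri_only (P := P) hab (fun p hp hpW => hc.trans (hmin' p hp hpW))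
      have h3 : (volume (P ∩ Wo y a b)).toReal ≤ D y a b / 2 :=
        ENNReal.toReal_le_of_le_ofReal (by positivity) h2
      have h5 : 2 * c0 * ((volume (P ∩ Wo y a b)).toReal -
          (1 / 4) ^ (k + 1) * (D a e b / 2)) ≤ c0 * D y a b := by
        have h6 : (0 : ℝ) ≤ (1 / 4) ^ (k + 1) * (D a e b / 2) := by positivity
        calc 2 * c0 * ((volume (P ∩ Wo y a b)).toReal - (1 / 4) ^ (k + 1) * (D a e b / 2))
            ≤ 2 * c0 * (D y a b / 2) := by
              apply mul_le_mul_of_nonneg_left _ (by positivity)
              linarith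
          _ = c0 * D y a b := by ring
      have h7 : L ≤ 2 ^ (k + 1) * L := by
        have : (1 : ℝ) ≤ 2 ^ (k + 1) := one_le_pow₀ (by norm_num)
        nlinarith
      linarith
    · -- a cap
      obtain ⟨h1c, h2c⟩ := hH c hcP hcW hc.le
      set E := D a e b with hEdef
      have hrel : E = D a e c + D e b c - D a b c := by
        rw [hEdef]; unfold D; ring
      have hEpos : 0 < E := by linarith
      set lam := - D a b c / E with hlam
      have hlamE : lam * E = - D a b c := by
        rw [hlam]; field_simp
      have hlam0 : 0 < lam := div_pos (by linarith) hEpos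
      have hlam1 : lam ≤ 1 := by
        rw [hlam, div_le_one hEpos]; linarith
      set e1 : ℝ × ℝ := (a.1 + lam * (e.1 - a.1), a.2 + lam * (e.2 - a.2)) with he1
      set e2 : ℝ × ℝ := (b.1 + lam * (e.1 - b.1), b.2 + lam * (e.2 - b.2)) with he2
      have hE1 : D a e1 c = lam * D a e c := by
        rw [he1]; simp only [D]; ring
      have hE2 : D c e2 b = lam * D e b c := by
        rw [he2]; simp only [D]; ring
      have hE1nn : 0 ≤ D a e1 c := by rw [hE1]; positivity
      have hE2nn : 0 ≤ D c e2 b := by rw [hE2]; positivity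
      have hsum : D a e1 c + D c e2 b ≤ E / 4 := by
        rw [hE1, hE2]
        have h1 : lam * D a e c + lam * D e b c = lam * (E - lam * E) := by
          rw [hlamE]
          have : E + D a b c = D a e c + D e b c := by linarith
          rw [sub_neg_eq_add, this]
          ring
        rw [h1]
        nlinarith [sq_nonneg (lam - 1 / 2)]
      have hyc : y ≠ c := by
        rintro rfl
        have : D a b y = D y a b := by unfold D; ring
        linarith
      -- the left piece
      have hHa : 0 < D y a c → HB P y a c e1 := by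
        intro hac p hp hpW hpc
        have hpb : 0 ≤ D y p b := by
          have h1 := plucker1 y a b c p
          have h2 : 0 ≤ D y p b * D y a c := by
            rw [h1]
            have := mul_nonneg hpW.2 hab.le
            have := mul_nonneg hpW.1 hcW.2
            linarith
          by_contra hneg
          push Not at hneg
          have := mul_neg_of_neg_of_pos hneg hac
          linarith
        have hpW' : p ∈ Wc y a b := ⟨hpW.1, hpb⟩
        have hpab : D a b p ≤ 0 := by
          have h1 : D y a c * D a b p = D a c p * D y a b + D y a p * D a b c := by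
            unfold D; ring
          have h2 : D y a c * D a b p ≤ 0 := by
            rw [h1]
            have := mul_nonpos_of_nonpos_of_nonneg hpc hab.le
            have := mul_nonpos_of_nonneg_of_nonpos hpW.1 hc.le
            linarith
          by_contra hpos
          push Not at hpos
          have := mul_pos hac hpos
          linarith
        obtain ⟨h3, h4⟩ := hH p hp hpW' hpab
        have hle := hmin' p hp hpW'
        refine ⟨?_, ?_⟩
        · have : D a e1 p = lam * D a e p := by
            rw [he1]; simp only [D]; ring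
          rw [this]; positivity
        · have hid : E * D e1 c p = D a e c * (D a b p - D a b c) := by
            rw [he1, hEdef] at *
            simp only [D] at *
            linear_combination (-(((c.1 - a.1) * (e.2 - a.2) - (c.2 - a.2) * (e.1 - a.1)) +
              ((e.1 - a.1) * (p.2 - a.2) - (e.2 - a.2) * (p.1 - a.1)))) * hlamE
          have h5 : 0 ≤ E * D e1 c p := by
            rw [hid]
            exact mul_nonneg h1c (by linarith)
          by_contra hneg
          push Not at hneg
          have := mul_neg_of_pos_of_neg hEpos hneg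
          linarith
      have hHb : 0 < D y c b → HB P y c b e2 := by
        intro hcb p hp hpW hpc
        have hpa : 0 ≤ D y a p := by
          have h1 := plucker2 y a b c p
          have h2 : 0 ≤ D y a p * D y c b := by
            rw [h1]
            have := mul_nonneg hab.le hpW.1
            have := mul_nonneg hcW.1 hpW.2
            linarith
          by_contra hneg
          push Not at hneg
          have := mul_neg_of_neg_of_pos hneg hcb
          linarith
        have hpW' : p ∈ Wc y a b := ⟨hpa, hpW.2⟩
        have hpab : D a b p ≤ 0 := by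
          have h1 : D y c b * D a b p = D c b p * D y a b + D y p b * D a b c := by
            unfold D; ring
          have h2 : D y c b * D a b p ≤ 0 := by
            rw [h1]
            have := mul_nonpos_of_nonpos_of_nonneg hpc hab.le
            have := mul_nonpos_of_nonneg_of_nonpos hpW.2 hc.le
            linarith
          by_contra hpos
          push Not at hpos
          have := mul_pos hcb hpos
          linarith
        obtain ⟨h3, h4⟩ := hH p hp hpW' hpab
        have hle := hmin' p hp hpW'
        refine ⟨?_, ?_⟩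
        · have hid : E * D c e2 p = D e b c * (D a b p - D a b c) := by
            rw [he2, hEdef] at *
            simp only [D] at *
            linear_combination (((e.1 - b.1) * (p.2 - b.2) - (e.2 - b.2) * (p.1 - b.1)) -
              ((e.1 - b.1) * (c.2 - b.2) - (e.2 - b.2) * (c.1 - b.1))) * hlamE
          have h5 : 0 ≤ E * D c e2 p := by
            rw [hid]
            exact mul_nonneg h2c (by linarith)
          by_contra hneg
          push Not at hneg
          have := mul_neg_of_pos_of_neg hEpos hneg
          linarith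
        · have : D e2 b p = lam * D e b p := by
            rw [he2]; simp only [D]; ring
          rw [this]; positivity
      -- the induction hypotheses, with the degenerate cases
      have hIa : 2 * c0 * ((volume (P ∩ Wo y a c)).toReal - (1 / 4) ^ k * (D a e1 c / 2)) -
          2 ^ k * L ≤ G (Wo y a c) := by
        rcases hcW.1.eq_or_lt with h0 | hpos
        · have hempty : Wo y a c = ∅ := by
            ext p
            simp only [mem_empty_iff_false, iff_false]
            rintro ⟨hp1, hp2⟩
            have h1 := plucker1 y a b c p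
            rw [← h0, mul_zero] at h1
            have := mul_pos hp2 hab
            have := mul_nonneg hp1.le hcW.2
            linarith
          rw [hempty]
          simp only [inter_empty, measure_empty, ENNReal.toReal_zero, zero_sub]
          have h1 := hG0 ∅
          have h2 : 0 ≤ 2 * c0 * ((1 / 4) ^ k * (D a e1 c / 2)) := by positivity
          have h3 : 0 ≤ 2 ^ k * L := by positivity
          nlinarith
        · exact ih a ha c hcP e1 hpos hE1nn (hHa hpos)
      have hIb : 2 * c0 * ((volume (P ∩ Wo y c b)).toReal - (1 / 4) ^ k * (D c e2 b / 2)) -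
          2 ^ k * L ≤ G (Wo y c b) := by
        rcases hcW.2.eq_or_lt with h0 | hpos
        · have hempty : Wo y c b = ∅ := by
            ext p
            simp only [mem_empty_iff_false, iff_false]
            rintro ⟨hp1, hp2⟩
            have h1 := plucker2 y a b c p
            rw [← h0, mul_zero] at h1
            have := mul_pos hab hp1
            have := mul_nonneg hcW.1 hp2.le
            linarith
          rw [hempty]
          simp only [inter_empty, measure_empty, ENNReal.toReal_zero, zero_sub]
          have h1 := hG0 ∅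
          have h2 : 0 ≤ 2 * c0 * ((1 / 4) ^ k * (D c e2 b / 2)) := by positivity
          have h3 : 0 ≤ 2 ^ k * L := by positivity
          nlinarith
        · exact ih c hcP b hb e2 hpos hE2nn (hHb hpos)
      have hadd := hGadd (Wo y a b) (Wo y a c) (Wo y c b) (isOpen_Wo _ _ _).measurableSet
        (isOpen_Wo _ _ _).measurableSet (Wo_disjoint y a b c) (Wo_sub_left hcW.1 hcW.2 hab)
        (Wo_sub_right hcW.1 hcW.2 hab)
      have harea : (volume (P ∩ Wo y a b)).toReal ≤
          (volume (P ∩ Wo y a c)).toReal + (volume (P ∩ Wo y c b)).toReal := by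
        rw [← ENNReal.toReal_add (hfin _) (hfin _)]
        apply ENNReal.toReal_mono (ENNReal.add_ne_top.mpr ⟨hfin _, hfin _⟩)
        have hsub : P ∩ Wo y a b ⊆ (P ∩ Wo y a c) ∪ (P ∩ Wo y c b) ∪ {p | D y c p = 0} := by
          rintro p ⟨hp, hpW⟩
          rcases Wo_cover y a b c hpW with (h | h) | h
          · exact Or.inl (Or.inl ⟨hp, h⟩)
          · exact Or.inl (Or.inr ⟨hp, h⟩)
          · exact Or.inr h
        calc volume (P ∩ Wo y a b)
            ≤ volume ((P ∩ Wo y a c) ∪ (P ∩ Wo y c b) ∪ {p | D y c p = 0}) := measure_mono hsub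
          _ ≤ volume ((P ∩ Wo y a c) ∪ (P ∩ Wo y c b)) + volume {p | D y c p = 0} :=
              measure_union_le _ _
          _ = volume ((P ∩ Wo y a c) ∪ (P ∩ Wo y c b)) := by
              rw [volume_line hyc, add_zero]
          _ ≤ _ := measure_union_le _ _
      have hmain : (volume (P ∩ Wo y a b)).toReal - (1 / 4) ^ (k + 1) * (E / 2) ≤
          ((volume (P ∩ Wo y a c)).toReal - (1 / 4) ^ k * (D a e1 c / 2)) +
          ((volume (P ∩ Wo y c b)).toReal - (1 / 4) ^ k * (D c e2 b / 2)) := by
        have h1 : (1 / 4 : ℝ) ^ k * (D a e1 c + D c e2 b) ≤ (1 / 4) ^ k * (E / 4) :=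
          mul_le_mul_of_nonneg_left hsum hX
        have h2 : (1 / 4 : ℝ) ^ (k + 1) = (1 / 4) ^ k * (1 / 4) := pow_succ _ _
        rw [h2]
        nlinarith
      have hmain2 := mul_le_mul_of_nonneg_left hmain (by positivity : 0 ≤ 2 * c0)
      have h2k : (2 : ℝ) ^ (k + 1) = 2 * 2 ^ k := by rw [pow_succ]; ring
      rw [h2k]
      nlinarith

end Vale.Agent.P243G
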